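import Mathlib

/-! # P202, transfer theorem (weak Artin approximation), definitions (helper85)

`MvPowerSeries (Fin D) R` = `R[[y_0..y_(D-1)]]`, `mI D R` the ideal of the variables, `bs D R0 R` the map
`R0[y] → R[[y]]`, `ev γ T` evaluation of polynomials with coefficients mapped by `γ` at the point `T`. -/

namespace Vale.Agent.P202T

/-- the ideal generated by the variables -/
noncomputable def mI (D : ℕ) (R : Type) [CommRing R] : Ideal (MvPowerSeries (Fin D) R) :=
  Ideal.span (Set.range MvPowerSeries.X)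

/-- polynomials as power series -/
noncomputable def bs (D : ℕ) (R0 R : Type) [CommRing R0] [CommRing R] [Algebra R0 R] :
    MvPolynomial (Fin D) R0 →+* MvPowerSeries (Fin D) R :=
  (MvPolynomial.aeval (R := R0) (fun i => (MvPowerSeries.X i : MvPowerSeries (Fin D) R))).toRingHom

/-- evaluation -/
noncomputable def ev {R1 C ι : Type} [CommRing R1] [CommRing C] (γ : R1 →+* C) (T : ι → C) :
    MvPolynomial ι R1 →+* C := MvPolynomial.eval₂Hom γ T

/-- `I` is contained in the Jacobson radical, and Newton's lemma (Tougeron's form, one variable) -/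
def HP (C : Type) [CommRing C] (I : Ideal C) : Prop :=
  (∀ ε ∈ I, IsUnit (1 + ε)) ∧
  ∀ (G : Polynomial C) (x : C) (J : Ideal C), J ≤ I →
    G.eval x ∈ Ideal.span {G.derivative.eval x ^ 2} * J →
    ∃ z, G.eval z = 0 ∧ z - x ∈ J

/-- the transfer theorem in `D` variables -/
def TransferAt (D : ℕ) : Prop :=
  ∀ (k R0 ι : Type) [Field k] [CharZero k] [CommRing R0] [Algebra R0 k] [Finite ι]
    (F : Finset (MvPolynomial ι (MvPolynomial (Fin D) R0))) (T0 : ι → MvPowerSeries (Fin D) k),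
    (∀ f ∈ F, ev (bs D R0 k) T0 f = 0) → ∀ c : ℕ,
    ∃ Lam : Subalgebra R0 k, Lam.FG ∧ ∃ T : ι → MvPowerSeries (Fin D) Lam,
      (∀ f ∈ F, ev (bs D R0 Lam) T f = 0) ∧
      ∀ i, MvPowerSeries.map (algebraMap Lam k) (T i) - T0 i ∈ mI D k ^ c

/-- regular in the variable `y_0` -/
def Reg (D : ℕ) {k : Type} [CommRing k] (f : MvPowerSeries (Fin (D + 1)) k) : Prop :=
  ∃ s : ℕ, MvPowerSeries.coeff (Finsupp.single 0 s) f ≠ 0

/-- `y_0 ↦ y_0`, `y_(i+1) ↦ y_(i+1) + lam_i y_0` -/
noncomputable def shv (D : ℕ) (lam : Fin D → ℤ) (R : Type) [CommRing R] :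
    Fin (D + 1) → MvPowerSeries (Fin (D + 1)) R :=
  Fin.cons (MvPowerSeries.X 0) (fun i => MvPowerSeries.X i.succ + (lam i : MvPowerSeries (Fin (D + 1)) R) * MvPowerSeries.X 0)

theorem shv_hasSubst (D : ℕ) (lam : Fin D → ℤ) (R : Type) [CommRing R] :
    MvPowerSeries.HasSubst (shv D lam R) := by
  refine MvPowerSeries.hasSubst_of_constantCoeff_zero fun i => ?_
  refine Fin.cases ?_ (fun i => ?_) i
  · simp [shv]
  · simp [shv]

/-- the linear change of variables -/
noncomputable def sh (D : ℕ) (lam : Fin D → ℤ) (R : Type) [CommRing R] :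
    MvPowerSeries (Fin (D + 1)) R →ₐ[R] MvPowerSeries (Fin (D + 1)) R :=
  MvPowerSeries.substAlgHom (shv_hasSubst D lam R)

/-- the linear change of variables for polynomials -/
noncomputable def shp (D : ℕ) (lam : Fin D → ℤ) (R0 : Type) [CommRing R0] :
    MvPolynomial (Fin (D + 1)) R0 →ₐ[R0] MvPolynomial (Fin (D + 1)) R0 :=
  MvPolynomial.aeval (Fin.cons (MvPolynomial.X 0)
    (fun i => MvPolynomial.X i.succ + (lam i : MvPolynomial (Fin (D + 1)) R0) * MvPolynomial.X 0))

open Polynomial in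
/-- the monic polynomial `X^s + ∑ u_l X^l` -/
noncomputable def Wp {A : Type} [CommRing A] {s : ℕ} (u : Fin s → A) : A[X] :=
  X ^ s + ∑ l, C (u l) * X ^ (l : ℕ)

open Polynomial in
/-- the polynomials `∑_(l<n) u_(j,l) X^l` -/
noncomputable def Tp {A : Type} [CommRing A] {M n : ℕ} (u : Fin M × Fin n → A) (j : Fin M) : A[X] :=
  ∑ l, C (u (j, l)) * X ^ (l : ℕ)

open Polynomial in
/-- `R0[y_0..y_D] → A[X]`, `y_0 ↦ X`, `y_(i+1) ↦ γ y_i` -/
noncomputable def bq {A R0 : Type} [CommRing A] [CommRing R0] (D : ℕ)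
    (γ : MvPolynomial (Fin D) R0 →+* A) : MvPolynomial (Fin (D + 1)) R0 →+* A[X] :=
  MvPolynomial.eval₂Hom (C.comp (γ.comp MvPolynomial.C)) (Fin.cons X (fun i => C (γ (MvPolynomial.X i))))

end Vale.Agent.P202T
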