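import Mathlib

namespace Vale.Agent.P202T

open Polynomial

/-- One variable Tougeron lemma: a simple root modulo `J` of `v + z + z^2 h(z)`. -/
theorem small_root {B : Type*} [CommRing B] (J : Ideal B) [IsAdicComplete J B]
    (h : B[X]) (v : B) (hv : v ∈ J) : ∃ w : B, v ∣ w ∧ v + w + w ^ 2 * h.eval w = 0 := by
  let φ : B → B := fun z => -v - z ^ 2 * h.eval z
  let z : ℕ → B := fun n => φ^[n] 0
  have hz0 : z 0 = 0 := rfl
  have hzs : ∀ n, z (n + 1) = -v - (z n) ^ 2 * h.eval (z n) := fun n => by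
    change φ^[n + 1] 0 = _
    rw [Function.iterate_succ_apply']
  have hzJ : ∀ n, z n ∈ J := by
    intro n
    induction n with
    | zero => rw [hz0]; exact J.zero_mem
    | succ n ih =>
      rw [hzs]
      refine J.sub_mem (J.neg_mem hv) (J.mul_mem_right _ ?_)
      rw [pow_two]
      exact J.mul_mem_right _ ih
  have hdiff : ∀ a b : B, a ∈ J → b ∈ J → ∃ c ∈ J,
      (-v - a ^ 2 * h.eval a) - (-v - b ^ 2 * h.eval b) = (a - b) * c := by
    intro a b ha hb
    obtain ⟨c, hc⟩ := Polynomial.sub_dvd_eval_sub a b h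
    refine ⟨-((a + b) * h.eval a) - b ^ 2 * c, ?_, ?_⟩
    · refine J.sub_mem (J.neg_mem (J.mul_mem_right _ (J.add_mem ha hb))) (J.mul_mem_right _ ?_)
      rw [pow_two]
      exact J.mul_mem_right _ hb
    · have : h.eval a = h.eval b + (a - b) * c := by rw [← hc]; ring
      rw [this]
      ring
  have hstep : ∀ n, z (n + 1) - z n ∈ J ^ (n + 1) := by
    intro n
    induction n with
    | zero => rw [hz0, sub_zero, zero_add, pow_one]; exact hzJ 1
    | succ n ih =>
      obtain ⟨c, hc, he⟩ := hdiff (z (n + 1)) (z n) (hzJ _) (hzJ _)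
      rw [hzs (n + 1)]
      nth_rewrite 3 [hzs n]
      rw [he, pow_succ]
      exact Ideal.mul_mem_mul ih hc
  have hcau : ∀ {m n : ℕ}, m ≤ n → z m ≡ z n [SMOD (J ^ m • ⊤ : Submodule B B)] := by
    intro m n hmn
    obtain ⟨k, rfl⟩ := Nat.exists_eq_add_of_le hmn
    induction k with
    | zero => exact SModEq.refl _
    | succ k ih =>
      refine (ih (by omega)).trans ?_
      rw [SModEq.sub_mem, smul_eq_mul, Ideal.mul_top]
      have h1 := hstep (m + k)
      have h2 : J ^ (m + k + 1) ≤ J ^ m := Ideal.pow_le_pow_right (by omega)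
      have h3 := (J ^ m).neg_mem (h2 h1)
      rw [neg_sub] at h3
      exact h3
  obtain ⟨L, hL⟩ := IsPrecomplete.prec inferInstance hcau
  have hLn : ∀ n, L - z n ∈ J ^ n := by
    intro n
    have h1 := (hL n).symm
    rw [SModEq.sub_mem, smul_eq_mul, Ideal.mul_top] at h1
    exact h1
  have hLJ : L ∈ J := by
    have h1 := hLn 1
    rw [pow_one] at h1
    have h2 := J.add_mem h1 (hzJ 1)
    rwa [sub_add_cancel] at h2
  have hfix : -v - L ^ 2 * h.eval L - L = 0 := by
    refine IsHausdorff.haus (I := J) inferInstance _ fun n => ?_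
    rw [SModEq.zero, smul_eq_mul, Ideal.mul_top]
    obtain ⟨c, hc, he⟩ := hdiff L (z n) hLJ (hzJ n)
    rw [← hzs n] at he
    have h1 : -v - L ^ 2 * h.eval L - L = (L - z n) * c + (z (n + 1) - z n) - (L - z n) := by
      rw [← he]; ring
    rw [h1]
    refine (J ^ n).sub_mem ((J ^ n).add_mem ((J ^ n).mul_mem_right _ (hLn n)) ?_) (hLn n)
    exact Ideal.pow_le_pow_right (by omega) (hstep n)
  have hu : IsUnit (1 + L * h.eval L) := by
    have h1 := IsAdicComplete.le_jacobson_bot J (J.mul_mem_right (h.eval L) hLJ)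
    rw [Ideal.mem_jacobson_bot] at h1
    have h2 := h1 1
    rw [mul_one, add_comm] at h2
    exact h2
  refine ⟨L, ?_, ?_⟩
  · have h1 : v * (-1) = L * (1 + L * h.eval L) := by
      have h2 : L * (1 + L * h.eval L) = -v - (-v - L ^ 2 * h.eval L - L) := by ring
      rw [h2, hfix]
      ring
    exact (hu.dvd_mul_right).mp ⟨-1, h1.symm⟩
  · have h2 : v + L + L ^ 2 * h.eval L = -(-v - L ^ 2 * h.eval L - L) := by ring
    rw [h2, hfix, neg_zero]

/-- Tougeron's form of Hensel's lemma in one variable. -/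
theorem toug {B : Type*} [CommRing B] (J : Ideal B) [IsAdicComplete J B]
    (p : B[X]) (a v : B) (hv : v ∈ J) (hp : p.eval a = (derivative p).eval a ^ 2 * v) :
    ∃ w : B, v ∣ w ∧ p.eval (a + (derivative p).eval a * w) = 0 := by
  set d := (derivative p).eval a with hd
  -- expansion
  obtain ⟨h, hh⟩ : ∃ h : B[X], ∀ y : B, p.eval (a + y) = p.eval a + d * y + y ^ 2 * h.eval y := by
    have h1 : p.taylor a = C (p.eval a) + C d * X + X ^ 2 * ((p.taylor a).divX).divX := by
      have e1 := Polynomial.divX_mul_X_add (p.taylor a)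
      have e2 := Polynomial.divX_mul_X_add ((p.taylor a).divX)
      have c0 : (p.taylor a).coeff 0 = p.eval a := Polynomial.taylor_coeff_zero a p
      have c1 : ((p.taylor a).divX).coeff 0 = d := by
        rw [Polynomial.coeff_divX, zero_add, Polynomial.taylor_coeff_one]
      rw [c0] at e1
      rw [c1] at e2
      calc p.taylor a = (p.taylor a).divX * X + C (p.eval a) := e1.symm
        _ = (((p.taylor a).divX).divX * X + C d) * X + C (p.eval a) := by rw [e2]
        _ = _ := by ring
    refine ⟨((p.taylor a).divX).divX, fun y => ?_⟩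
    have h2 : p.eval (a + y) = (p.taylor a).eval y := by
      rw [Polynomial.taylor_eval, add_comm]
    rw [h2]
    conv_lhs => rw [h1]
    simp only [eval_add, eval_mul, eval_C, eval_X, eval_pow]
  obtain ⟨w, hvw, hw⟩ := small_root J (h.comp (C d * X)) v hv
  refine ⟨w, hvw, ?_⟩
  rw [hh, hp]
  rw [eval_comp, eval_mul, eval_C, eval_X] at hw
  have : d ^ 2 * v + d * (d * w) + (d * w) ^ 2 * h.eval (d * w) =
      d ^ 2 * (v + w + w ^ 2 * h.eval (d * w)) := by ring
  rw [this, hw, mul_zero]

end Vale.Agent.P202T
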