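import Vale.Agent.P202T.Defs
import Vale.Agent.P202T.Toug

namespace Vale.Agent.P202T

theorem hp_of_complete (C : Type) [CommRing C] (I : Ideal C) [IsAdicComplete I C] : HP C I := by
  refine ⟨fun ε hε => ?_, fun G x J hJ hx => ?_⟩
  · have h1 := IsAdicComplete.le_jacobson_bot I hε
    rw [Ideal.mem_jacobson_bot] at h1
    have h2 := h1 1
    rw [mul_one, add_comm] at h2
    exact h2
  · rw [Ideal.mem_span_singleton_mul] at hx
    obtain ⟨v, hv, hx⟩ := hx
    obtain ⟨w, ⟨s, rfl⟩, hw⟩ := toug I G x v (hJ hv) hx.symm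
    refine ⟨_, hw, ?_⟩
    rw [add_sub_cancel_left]
    exact J.mul_mem_left _ (J.mul_mem_right _ hv)

theorem hp_mvps_proved (D : ℕ) (R : Type) [CommRing R] : HP (MvPowerSeries (Fin D) R) (mI D R) := by
  have : IsAdicComplete (mI D R) (MvPowerSeries (Fin D) R) := by
    unfold mI
    infer_instance
  exact hp_of_complete _ _

end Vale.Agent.P202T
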