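import Mathlib

namespace Vale.Agent.P202T

open Polynomial

/-- Pseudo-division. -/
theorem pdiv {A : Type*} [CommRing A] [IsDomain A] (m : A[X]) (hm : m ≠ 0) :
    ∀ (N : ℕ) (p : A[X]), p.natDegree < N →
      ∃ (a : ℕ) (h : A[X]), (C (m.leadingCoeff ^ a) * p - m * h).degree < m.degree := by
  intro N
  induction N with
  | zero => intro p hp; omega
  | succ N ih =>
    intro p hp
    by_cases h0 : p.degree < m.degree
    · exact ⟨0, 0, by simpa using h0⟩
    push Not at h0
    have hp0 : p ≠ 0 := by
      rintro rfl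
      rw [degree_zero, le_bot_iff, degree_eq_bot] at h0
      exact hm h0
    have hnd : m.natDegree ≤ p.natDegree := natDegree_le_natDegree h0
    have hlm : m.leadingCoeff ≠ 0 := leadingCoeff_ne_zero.mpr hm
    have hlp : p.leadingCoeff ≠ 0 := leadingCoeff_ne_zero.mpr hp0
    by_cases hz : p.natDegree = 0
    · -- both constant
      have hm0 : m.natDegree = 0 := by omega
      have e1 : m = C m.leadingCoeff := by
        rw [leadingCoeff, hm0]
        exact eq_C_of_natDegree_eq_zero hm0
      have e2 : p = C p.leadingCoeff := by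
        rw [leadingCoeff, hz]
        exact eq_C_of_natDegree_eq_zero hz
      refine ⟨1, p, ?_⟩
      rw [pow_one]
      have : C m.leadingCoeff * p - m * p = 0 := by rw [← e1]; ring
      rw [this, degree_zero]
      exact bot_lt_iff_ne_bot.mpr (fun h => hm (degree_eq_bot.mp h))
    set q := C m.leadingCoeff * p - C p.leadingCoeff * X ^ (p.natDegree - m.natDegree) * m with hq
    have hqd : q.natDegree < N := by
      by_cases hq0 : q = 0
      · rw [hq0, natDegree_zero]; omega
      have h1 : q.degree < (C m.leadingCoeff * p).degree := by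
        refine degree_sub_lt_left ?_ (mul_ne_zero (C_ne_zero.mpr hlm) hp0) ?_
        · rw [degree_C_mul hlm, degree_mul, degree_C_mul_X_pow _ hlp,
            degree_eq_natDegree hm, degree_eq_natDegree hp0, ← Nat.cast_add,
            Nat.sub_add_cancel hnd]
        · rw [leadingCoeff_mul, leadingCoeff_mul, leadingCoeff_C, leadingCoeff_C_mul_X_pow,
            mul_comm]
      rw [degree_C_mul hlm] at h1
      have h2 := natDegree_lt_natDegree hq0 h1
      omega
    obtain ⟨a, h, hah⟩ := ih q hqd
    refine ⟨a + 1, h + C (m.leadingCoeff ^ a) * (C p.leadingCoeff * X ^ (p.natDegree - m.natDegree)),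
      ?_⟩
    have e : C (m.leadingCoeff ^ (a + 1)) * p - m * (h + C (m.leadingCoeff ^ a) *
        (C p.leadingCoeff * X ^ (p.natDegree - m.natDegree))) =
        C (m.leadingCoeff ^ a) * q - m * h := by
      rw [hq, pow_succ, C_mul]
      ring
    rw [e]
    exact hah

/-- Minimal relation of an element of a domain of characteristic zero over a subring. -/
theorem exists_min {A K : Type*} [CommRing A] [IsDomain A] [CommRing K] [IsDomain K] [CharZero K]
    (i : A →+* K) (hi : Function.Injective i) (θ : K) :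
    (∀ p : A[X], p.eval₂ i θ = 0 → p = 0) ∨
    ∃ m : A[X], m.eval₂ i θ = 0 ∧ (derivative m).eval₂ i θ ≠ 0 ∧
      ∀ p : A[X], p.eval₂ i θ = 0 → ∃ (g : A) (h : A[X]), g ≠ 0 ∧ C g * p = m * h := by
  classical
  by_cases hT : ∀ p : A[X], p.eval₂ i θ = 0 → p = 0
  · exact Or.inl hT
  right
  push Not at hT
  obtain ⟨p₀, hp₀, hp₀'⟩ := hT
  have hex : ∃ n : ℕ, ∃ p : A[X], p.natDegree = n ∧ p ≠ 0 ∧ p.eval₂ i θ = 0 :=
    ⟨_, p₀, rfl, hp₀', hp₀⟩
  obtain ⟨m, hmn, hm0, hmz⟩ := Nat.find_spec hex
  have hmin : ∀ p : A[X], p ≠ 0 → p.eval₂ i θ = 0 → m.natDegree ≤ p.natDegree := by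
    intro p hp hpz
    rw [hmn]
    exact Nat.find_min' hex ⟨p, rfl, hp, hpz⟩
  have hpos : 0 < m.natDegree := by
    rcases Nat.eq_zero_or_pos m.natDegree with h | h
    · exfalso
      have e := eq_C_of_natDegree_eq_zero h
      rw [e, eval₂_C] at hmz
      have : m.coeff 0 = 0 := hi (by rw [hmz, map_zero])
      rw [this, C_0] at e
      exact hm0 e
    · exact h
  have hcz : CharZero A := by
    constructor
    intro a b hab
    have := congrArg i hab
    rw [map_natCast, map_natCast] at this
    exact Nat.cast_injective this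
  have hder : derivative m ≠ 0 := by
    intro h
    have := Polynomial.derivative_eq_zero.mp h
    omega
  refine ⟨m, hmz, ?_, ?_⟩
  · intro h
    have h1 := hmin _ hder h
    have h2 := natDegree_derivative_lt (by omega : m.natDegree ≠ 0)
    omega
  · intro p hp
    obtain ⟨a, h, hah⟩ := pdiv m hm0 (p.natDegree + 1) p (Nat.lt_succ_self _)
    refine ⟨m.leadingCoeff ^ a, h, pow_ne_zero _ (leadingCoeff_ne_zero.mpr hm0), ?_⟩
    by_contra hne
    have hr : C (m.leadingCoeff ^ a) * p - m * h ≠ 0 := fun h0 => hne (sub_eq_zero.mp h0)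
    have hz : (C (m.leadingCoeff ^ a) * p - m * h).eval₂ i θ = 0 := by
      rw [eval₂_sub, eval₂_mul, eval₂_mul, hp, hmz, mul_zero, zero_mul, sub_zero]
    have h1 := hmin _ hr hz
    have h2 := natDegree_lt_natDegree hr hah
    omega

/-- The same for a ring homomorphism which need not be injective. -/
theorem exists_min' {S K : Type*} [CommRing S] [CommRing K] [IsDomain K] [CharZero K]
    (ψ : S →+* K) (θ : K) :
    (∀ p : S[X], p.eval₂ ψ θ = 0 → ∀ i, ψ (p.coeff i) = 0) ∨
    ∃ m : S[X], m.eval₂ ψ θ = 0 ∧ (derivative m).eval₂ ψ θ ≠ 0 ∧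
      ∀ p : S[X], p.eval₂ ψ θ = 0 → ∃ (g : S) (h : S[X]), ψ g ≠ 0 ∧
        ∀ i, ψ ((C g * p - m * h).coeff i) = 0 := by
  let φ : S →+* ψ.range := ψ.rangeRestrict
  have hφ : Function.Surjective φ := ψ.rangeRestrict_surjective
  have hcomp : (ψ.range.subtype).comp φ = ψ := by
    ext x
    rfl
  have hev : ∀ p : S[X], (p.map φ).eval₂ ψ.range.subtype θ = p.eval₂ ψ θ := by
    intro p
    rw [eval₂_map, hcomp]
  have hco : ∀ s : S, φ s = 0 ↔ ψ s = 0 := by
    intro s
    have e : ψ s = ((φ s : ψ.range) : K) := rfl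
    rw [e]
    exact ⟨fun h => by rw [h]; rfl, fun h => Subtype.ext h⟩
  rcases exists_min ψ.range.subtype Subtype.val_injective θ with h | ⟨m, hm1, hm2, hm3⟩
  · left
    intro p hp i
    have h1 := h (p.map φ) (by rw [hev, hp])
    have h2 := congrArg (fun q => q.coeff i) h1
    simp only [coeff_map, coeff_zero] at h2
    exact (hco _).mp h2
  · right
    obtain ⟨m', rfl⟩ := Polynomial.map_surjective φ hφ m
    refine ⟨m', by rw [← hev, hm1], ?_, ?_⟩
    · rw [← hev, ← derivative_map]
      exact hm2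
    · intro p hp
      obtain ⟨g, h, hg, hgh⟩ := hm3 (p.map φ) (by rw [hev, hp])
      obtain ⟨g', rfl⟩ := hφ g
      obtain ⟨h', rfl⟩ := Polynomial.map_surjective φ hφ h
      refine ⟨g', h', fun h0 => hg ((hco _).mpr h0), fun i => ?_⟩
      rw [← hco]
      have h1 : (C g' * p - m' * h').map φ = 0 := by
        rw [Polynomial.map_sub, Polynomial.map_mul, Polynomial.map_mul, map_C, hgh, sub_self]
      have h2 := congrArg (fun q => q.coeff i) h1
      simpa only [coeff_map, coeff_zero] using h2

end Vale.Agent.P202T
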