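import Vale.Agent.P202T.Defs
import Vale.Agent.P202T.MinP

namespace Vale.Agent.P202T

open MvPolynomial

theorem TB_ev_cons {R1 C : Type} [CommRing R1] [CommRing C] (γ : R1 →+* C) {M : ℕ}
    (b : C) (T : Fin M → C) (f : MvPolynomial (Fin (M + 1)) R1) :
    ev γ (Fin.cons b T : Fin (M + 1) → C) f = (finSuccEquiv R1 M f).eval₂ (ev γ T) b := by
  induction f using MvPolynomial.induction_on with
  | C a =>
    have h : finSuccEquiv R1 M (MvPolynomial.C a) = Polynomial.C (MvPolynomial.C a) :=
      AlgEquiv.commutes _ a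
    rw [h, Polynomial.eval₂_C]
    simp [ev]
  | add p q hp hq => rw [map_add, map_add, Polynomial.eval₂_add, hp, hq]
  | mul_X p i hp =>
    rw [map_mul, map_mul, Polynomial.eval₂_mul, hp]
    congr 1
    refine Fin.cases ?_ (fun j => ?_) i
    · rw [finSuccEquiv_X_zero, Polynomial.eval₂_X]
      simp [ev]
    · rw [finSuccEquiv_X_succ, Polynomial.eval₂_C]
      simp [ev]

theorem TB_ev_rename {R1 C : Type} [CommRing R1] [CommRing C] (γ : R1 →+* C) {M : ℕ}
    (T : Fin (M + 1) → C) (f : MvPolynomial (Fin M) R1) :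
    ev γ T (rename Fin.succ f) = ev γ (Fin.tail T) f := by
  simp only [ev, coe_eval₂Hom]
  rw [eval₂_rename]
  rfl

theorem TB_sub_mem {R1 C ι : Type} [CommRing R1] [CommRing C] (γ : R1 →+* C)
    (T T' : ι → C) (J : Ideal C) (h : ∀ j, T j - T' j ∈ J) (f : MvPolynomial ι R1) :
    ev γ T f - ev γ T' f ∈ J := by
  rw [← Ideal.Quotient.eq_zero_iff_mem, map_sub, sub_eq_zero]
  have e : ∀ S : ι → C, Ideal.Quotient.mk J (ev γ S f) =
      ev ((Ideal.Quotient.mk J).comp γ) (fun j => Ideal.Quotient.mk J (S j)) f := by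
    intro S
    simp only [ev, coe_eval₂Hom]
    rw [MvPolynomial.hom_eval₂]
  rw [e, e]
  congr 1
  congr 1
  funext j
  have := h j
  rw [← Ideal.Quotient.eq_zero_iff_mem, map_sub, sub_eq_zero] at this
  exact this

theorem lift_exists_proved {R1 P : Type} [CommRing R1] [CommRing P] [IsDomain P] [CharZero P]
    (β : R1 →+* P) {M : ℕ}
    (F : Finset (MvPolynomial (Fin M) R1)) (T0 : Fin M → P) (h0 : ∀ f ∈ F, ev β T0 f = 0) :
    ∃ (Q : Finset (MvPolynomial (Fin M) R1)) (δ : MvPolynomial (Fin M) R1),
      (∀ q ∈ Q, ev β T0 q = 0) ∧ ev β T0 δ ≠ 0 ∧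
      ∀ (C : Type) [CommRing C] [IsDomain C] (γ : R1 →+* C), (∀ r, β r = 0 → γ r = 0) →
        ∀ (I : Ideal C), HP C I → ∀ (J : Ideal C), J ≤ I → ∀ (T1 : Fin M → C),
        (∀ q ∈ Q, ev γ T1 q ∈ Ideal.span {ev γ T1 δ ^ 2} * J) →
        ∃ T : Fin M → C, (∀ j, T j - T1 j ∈ J) ∧ (ev γ T δ ≠ 0 → ∀ f ∈ F, ev γ T f = 0) := by
  classical
  induction M with
  | zero =>
    refine ⟨∅, 1, by simp, by rw [map_one]; exact one_ne_zero, ?_⟩
    intro C _ _ γ hγ I _ J _ T1 _
    refine ⟨T1, fun j => j.elim0, fun _ f hf => ?_⟩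
    have h1 := h0 f hf
    obtain ⟨c, rfl⟩ := MvPolynomial.C_surjective (Fin 0) f
    have h2 : β c = 0 := by simpa [ev] using h1
    simpa [ev] using hγ c h2
  | succ M ih =>
    set θ := T0 0 with hθ
    set T0' := Fin.tail T0 with hT0'
    have hcons : T0 = Fin.cons θ T0' := (Fin.cons_self_tail T0).symm
    have hev0 : ∀ f : MvPolynomial (Fin (M + 1)) R1,
        ev β T0 f = (finSuccEquiv R1 M f).eval₂ (ev β T0') θ := by
      intro f
      conv_lhs => rw [hcons]
      exact TB_ev_cons β θ T0' f
    rcases exists_min' (ev β T0') θ with hA | ⟨m, hm1, hm2, hm3⟩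
    · -- transcendental case
      let F' : Finset (MvPolynomial (Fin M) R1) :=
        F.biUnion fun f => (finSuccEquiv R1 M f).support.image
          fun i => (finSuccEquiv R1 M f).coeff i
      have hF' : ∀ f' ∈ F', ev β T0' f' = 0 := by
        intro f' hf'
        simp only [F', Finset.mem_biUnion, Finset.mem_image] at hf'
        obtain ⟨f, hf, i, -, rfl⟩ := hf'
        exact hA _ (by rw [← hev0, h0 f hf]) i
      obtain ⟨Q, δ, hQ, hδ, hL⟩ := ih F' T0' hF'
      refine ⟨Q.image (rename Fin.succ), rename Fin.succ δ, ?_, ?_, ?_⟩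
      · intro g hg
        obtain ⟨g', hg', rfl⟩ := Finset.mem_image.mp hg
        rw [TB_ev_rename]
        exact hQ g' hg'
      · rw [TB_ev_rename]
        exact hδ
      · intro C _ _ γ hγ I hI J hJ T1 hG1
        obtain ⟨T', hT'1, hT'2⟩ := hL C γ hγ I hI J hJ (Fin.tail T1) (by
          intro g hg
          have := hG1 _ (Finset.mem_image_of_mem _ hg)
          rwa [TB_ev_rename, TB_ev_rename] at this)
        refine ⟨Fin.cons (T1 0) T', ?_, ?_⟩
        · intro j
          refine Fin.cases ?_ (fun j => ?_) j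
          · rw [Fin.cons_zero, sub_self]
            exact J.zero_mem
          · rw [Fin.cons_succ]
            exact hT'1 j
        · intro hne f hf
          rw [TB_ev_rename, Fin.tail_cons] at hne
          rw [TB_ev_cons, Polynomial.eval₂_eq_sum, Polynomial.sum]
          refine Finset.sum_eq_zero fun i hi => ?_
          have h1 : ev γ T' ((finSuccEquiv R1 M f).coeff i) = 0 := by
            refine hT'2 hne _ ?_
            simp only [F', Finset.mem_biUnion, Finset.mem_image]
            exact ⟨f, hf, i, hi, rfl⟩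
          rw [h1, zero_mul]
    · -- algebraic case
      have hch : ∀ f : MvPolynomial (Fin (M + 1)) R1, ∃ (g : MvPolynomial (Fin M) R1)
          (h : Polynomial (MvPolynomial (Fin M) R1)), f ∈ F → ev β T0' g ≠ 0 ∧
            ∀ i, ev β T0' ((Polynomial.C g * finSuccEquiv R1 M f - m * h).coeff i) = 0 := by
        intro f
        by_cases hf : f ∈ F
        · obtain ⟨g, h, h1, h2⟩ := hm3 (finSuccEquiv R1 M f) (by rw [← hev0, h0 f hf])
          exact ⟨g, h, fun _ => ⟨h1, h2⟩⟩
        · exact ⟨0, 0, fun h => absurd h hf⟩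
      choose gf hf hgh using hch
      let q : MvPolynomial (Fin (M + 1)) R1 → Polynomial (MvPolynomial (Fin M) R1) := fun f =>
        Polynomial.C (gf f) * finSuccEquiv R1 M f - m * hf f
      let F' : Finset (MvPolynomial (Fin M) R1) :=
        F.biUnion fun f => (q f).support.image fun i => (q f).coeff i
      have hF' : ∀ f' ∈ F', ev β T0' f' = 0 := by
        intro f' hf'
        simp only [F', Finset.mem_biUnion, Finset.mem_image] at hf'
        obtain ⟨f, hf, i, -, rfl⟩ := hf'
        exact (hgh f hf).2 i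
      obtain ⟨Q, δ, hQ, hδ, hL⟩ := ih F' T0' hF'
      let g : MvPolynomial (Fin M) R1 := ∏ f ∈ F, gf f
      have hg : ev β T0' g ≠ 0 := by
        rw [map_prod]
        exact Finset.prod_ne_zero_iff.mpr fun f hf => (hgh f hf).1
      let μ : MvPolynomial (Fin (M + 1)) R1 := (finSuccEquiv R1 M).symm m
      let μ' : MvPolynomial (Fin (M + 1)) R1 := (finSuccEquiv R1 M).symm (Polynomial.derivative m)
      have hμ : finSuccEquiv R1 M μ = m := AlgEquiv.apply_symm_apply _ _
      have hμ' : finSuccEquiv R1 M μ' = Polynomial.derivative m := AlgEquiv.apply_symm_apply _ _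
      refine ⟨insert μ (Q.image (rename Fin.succ)), rename Fin.succ δ * μ' * rename Fin.succ g,
        ?_, ?_, ?_⟩
      · intro g' hg'
        rcases Finset.mem_insert.mp hg' with rfl | hg'
        · rw [hev0, hμ, hm1]
        · obtain ⟨g'', hg'', rfl⟩ := Finset.mem_image.mp hg'
          rw [TB_ev_rename]
          exact hQ g'' hg''
      · rw [map_mul, map_mul, TB_ev_rename, TB_ev_rename, hev0 μ', hμ']
        exact mul_ne_zero (mul_ne_zero hδ hm2) hg
      · intro C _ _ γ hγ I hI J hJ T1 hG1
        set T1' := Fin.tail T1 with hT1'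
        simp only [map_mul, TB_ev_rename, ← hT1'] at hG1
        set D := ev γ T1' δ with hD
        set X := ev γ T1 μ' with hX
        set g1 := ev γ T1' g with hg1
        have hJ'J : Ideal.span {g1 ^ 2 * X ^ 2} * J ≤ J := Ideal.mul_le_right
        obtain ⟨T', hT'1, hT'2⟩ := hL C γ hγ I hI (Ideal.span {g1 ^ 2 * X ^ 2} * J)
          (hJ'J.trans hJ) T1' (by
          intro g' hg'
          have h1 := hG1 _ (Finset.mem_insert_of_mem (Finset.mem_image_of_mem _ hg'))
          rw [TB_ev_rename, Ideal.mem_span_singleton_mul] at h1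
          obtain ⟨z, hz, h1⟩ := h1
          rw [← hD, Ideal.mem_span_singleton_mul]
          refine ⟨g1 ^ 2 * X ^ 2 * z, Ideal.mem_span_singleton_mul.mpr ⟨z, hz, rfl⟩, ?_⟩
          rw [← h1]
          ring)
        -- comparison of the two points
        have hcmp : ∀ f : MvPolynomial (Fin (M + 1)) R1, ∃ s ∈ J,
            ev γ (Fin.cons (T1 0) T' : Fin (M + 1) → C) f = ev γ T1 f + g1 ^ 2 * X ^ 2 * s := by
          intro f
          have h1 := TB_sub_mem γ (Fin.cons (T1 0) T' : Fin (M + 1) → C) T1
            (Ideal.span {g1 ^ 2 * X ^ 2} * J) (by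
              intro j
              refine Fin.cases ?_ (fun j => ?_) j
              · rw [Fin.cons_zero, sub_self]
                exact Ideal.zero_mem _
              · rw [Fin.cons_succ]
                exact hT'1 j) f
          rw [Ideal.mem_span_singleton_mul] at h1
          obtain ⟨s, hs, h1⟩ := h1
          exact ⟨s, hs, by rw [h1]; ring⟩
        obtain ⟨s1, hs1J, hs1⟩ := hcmp μ'
        obtain ⟨s2, hs2J, hs2⟩ := hcmp μ
        have h3 := hG1 μ (Finset.mem_insert_self _ _)
        rw [Ideal.mem_span_singleton_mul] at h3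
        obtain ⟨s3, hs3J, hs3⟩ := h3
        rw [← hX] at hs1
        let p : Polynomial C := m.map (ev γ T')
        have hp0 : p.eval (T1 0) = X ^ 2 * (g1 ^ 2 * (D ^ 2 * s3 + s2)) := by
          have h1 : p.eval (T1 0) = ev γ (Fin.cons (T1 0) T' : Fin (M + 1) → C) μ := by
            rw [TB_ev_cons, hμ, Polynomial.eval_map]
          rw [h1, hs2, ← hs3]
          ring
        obtain ⟨u, hu⟩ := hI.1 (g1 ^ 2 * X * s1) (hJ (J.mul_mem_left _ hs1J))
        have hp1 : (Polynomial.derivative p).eval (T1 0) = X * u := by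
          have h1 : (Polynomial.derivative p).eval (T1 0) =
              ev γ (Fin.cons (T1 0) T' : Fin (M + 1) → C) μ' := by
            rw [TB_ev_cons, hμ', Polynomial.derivative_map, Polynomial.eval_map]
          rw [h1, hs1, hu]
          ring
        obtain ⟨z, hroot, hzJ⟩ := hI.2 p (T1 0) J hJ (by
          rw [Ideal.mem_span_singleton_mul]
          refine ⟨(↑u⁻¹ : C) ^ 2 * (g1 ^ 2 * (D ^ 2 * s3 + s2)),
            J.mul_mem_left _ (J.mul_mem_left _ (J.add_mem (J.mul_mem_left _ hs3J) hs2J)), ?_⟩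
          rw [hp0, hp1]
          have h1 : (u : C) * (↑u⁻¹ : C) = 1 := u.mul_inv
          calc (X * u) ^ 2 * ((↑u⁻¹ : C) ^ 2 * (g1 ^ 2 * (D ^ 2 * s3 + s2)))
              = X ^ 2 * ((u : C) * (↑u⁻¹ : C)) ^ 2 * (g1 ^ 2 * (D ^ 2 * s3 + s2)) := by ring
            _ = _ := by rw [h1]; ring)
        refine ⟨Fin.cons z T', ?_, ?_⟩
        · intro j
          refine Fin.cases ?_ (fun j => ?_) j
          · rw [Fin.cons_zero]
            exact hzJ
          · rw [Fin.cons_succ]
            exact hJ'J (hT'1 j)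
        · intro hne f hfF
          rw [map_mul, map_mul, TB_ev_rename, TB_ev_rename, Fin.tail_cons] at hne
          have hδ' : ev γ T' δ ≠ 0 := fun h => hne (by rw [h, zero_mul, zero_mul])
          have hg' : ev γ T' g ≠ 0 := fun h => hne (by rw [h, mul_zero])
          have hq0 : (q f).eval₂ (ev γ T') z = 0 := by
            rw [Polynomial.eval₂_eq_sum, Polynomial.sum]
            refine Finset.sum_eq_zero fun i hi => ?_
            have h1 : ev γ T' ((q f).coeff i) = 0 := by
              refine hT'2 hδ' _ ?_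
              simp only [F', Finset.mem_biUnion, Finset.mem_image]
              exact ⟨f, hfF, i, hi, rfl⟩
            rw [h1, zero_mul]
          have hm0 : m.eval₂ (ev γ T') z = 0 := by
            rw [← Polynomial.eval_map]
            exact hroot
          simp only [q, Polynomial.eval₂_sub, Polynomial.eval₂_mul, hm0, zero_mul, sub_zero,
            Polynomial.eval₂_C] at hq0
          rw [← TB_ev_cons] at hq0
          rcases mul_eq_zero.mp hq0 with h | h
          · exfalso
            refine hg' ?_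
            have h2 : ev γ T' g = ∏ f ∈ F, ev γ T' (gf f) := map_prod _ _ _
            rw [h2]
            exact Finset.prod_eq_zero hfF h
          · exact h

end Vale.Agent.P202T
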