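import Vale.Agent.P202T.Defs

/-! # P202, transfer theorem, module TC: the linear change of variables (helper16) -/

namespace Vale.Agent.P202T

open MvPowerSeries in
private theorem tc_sh_X (D : ℕ) (lam : Fin D → ℤ) (R : Type) [CommRing R] (i : Fin (D + 1)) :
    sh D lam R (MvPowerSeries.X i) = shv D lam R i := by
  unfold sh
  rw [substAlgHom_X]

theorem sh_bs_proved (D : ℕ) (lam : Fin D → ℤ) (R0 R : Type) [CommRing R0] [CommRing R]
    [Algebra R0 R] (g : MvPolynomial (Fin (D + 1)) R0) :
    sh D lam R (bs (D + 1) R0 R g) = bs (D + 1) R0 R (shp D lam R0 g) := by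
  have h : (sh D lam R).toRingHom.comp (bs (D + 1) R0 R) =
      (bs (D + 1) R0 R).comp (shp D lam R0).toRingHom := by
    apply MvPolynomial.ringHom_ext
    · intro r
      have h1 : bs (D + 1) R0 R (MvPolynomial.C r) =
          algebraMap R (MvPowerSeries (Fin (D + 1)) R) (algebraMap R0 R r) := by
        have : bs (D + 1) R0 R (MvPolynomial.C r) =
            algebraMap R0 (MvPowerSeries (Fin (D + 1)) R) r := by
          unfold bs
          exact MvPolynomial.aeval_C _ r
        rw [this, IsScalarTower.algebraMap_apply R0 R]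
      have h2 : shp D lam R0 (MvPolynomial.C r) = MvPolynomial.C r := by
        unfold shp
        rw [MvPolynomial.aeval_C]
        rfl
      show sh D lam R (bs (D + 1) R0 R (MvPolynomial.C r)) =
        bs (D + 1) R0 R (shp D lam R0 (MvPolynomial.C r))
      rw [h2, h1]
      exact (sh D lam R).commutes _
    · intro i
      have hX : ∀ j, bs (D + 1) R0 R (MvPolynomial.X j) = MvPowerSeries.X j := by
        intro j
        unfold bs
        exact MvPolynomial.aeval_X _ j
      show sh D lam R (bs (D + 1) R0 R (MvPolynomial.X i)) =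
        bs (D + 1) R0 R (shp D lam R0 (MvPolynomial.X i))
      rw [hX, tc_sh_X]
      unfold shp
      rw [MvPolynomial.aeval_X]
      refine Fin.cases ?_ (fun j => ?_) i
      · simp only [shv, Fin.cons_zero, hX]
      · simp only [shv, Fin.cons_succ, map_add, map_mul, hX, map_intCast]
  exact congrArg (fun φ => φ g) h

theorem sh_map_proved (D : ℕ) (lam : Fin D → ℤ) {R S : Type} [CommRing R] [CommRing S]
    (φ : R →+* S) (f : MvPowerSeries (Fin (D + 1)) R) :
    MvPowerSeries.map φ (sh D lam R f) = sh D lam S (MvPowerSeries.map φ f) := by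
  unfold sh
  rw [MvPowerSeries.substAlgHom_apply, MvPowerSeries.substAlgHom_apply,
    MvPowerSeries.map_subst (shv_hasSubst D lam R)]
  congr 1
  funext i
  refine Fin.cases ?_ (fun j => ?_) i
  · simp only [shv, Fin.cons_zero, MvPowerSeries.map_X]
  · simp only [shv, Fin.cons_succ, map_add, map_mul, MvPowerSeries.map_X, map_intCast]

theorem sh_sh_proved (D : ℕ) (lam : Fin D → ℤ) (R : Type) [CommRing R]
    (f : MvPowerSeries (Fin (D + 1)) R) : sh D (-lam) R (sh D lam R f) = f := by
  have h : (fun s => MvPowerSeries.subst (shv D (-lam) R) (shv D lam R s)) =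
      (MvPowerSeries.X : Fin (D + 1) → MvPowerSeries (Fin (D + 1)) R) := by
    funext i
    have hc : ∀ g : MvPowerSeries (Fin (D + 1)) R,
        MvPowerSeries.subst (shv D (-lam) R) g = sh D (-lam) R g := by
      intro g
      unfold sh
      rw [MvPowerSeries.substAlgHom_apply]
    rw [hc]
    refine Fin.cases ?_ (fun j => ?_) i
    · simp only [shv, Fin.cons_zero]
      rw [tc_sh_X]
      simp only [shv, Fin.cons_zero]
    · simp only [shv, Fin.cons_succ]
      rw [map_add, map_mul, tc_sh_X, tc_sh_X, map_intCast]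
      simp only [shv, Fin.cons_zero, Fin.cons_succ, Pi.neg_apply, Int.cast_neg]
      ring
  unfold sh
  rw [MvPowerSeries.substAlgHom_apply, MvPowerSeries.substAlgHom_apply,
    MvPowerSeries.subst_comp_subst_apply (shv_hasSubst D lam R) (shv_hasSubst D (-lam) R), h,
    MvPowerSeries.subst_self]
  rfl

theorem sh_X0_proved (D : ℕ) (lam : Fin D → ℤ) (R : Type) [CommRing R] :
    sh D lam R (MvPowerSeries.X 0) = MvPowerSeries.X 0 := by
  rw [tc_sh_X]
  simp only [shv, Fin.cons_zero]

theorem sh_mI_proved (D : ℕ) (lam : Fin D → ℤ) (R : Type) [CommRing R] (c : ℕ)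
    (f : MvPowerSeries (Fin (D + 1)) R) (hf : f ∈ mI (D + 1) R ^ c) :
    sh D lam R f ∈ mI (D + 1) R ^ c := by
  have hX : ∀ j, (MvPowerSeries.X j : MvPowerSeries (Fin (D + 1)) R) ∈ mI (D + 1) R :=
    fun j => Ideal.subset_span ⟨j, rfl⟩
  have h1 : Ideal.map (sh D lam R).toRingHom (mI (D + 1) R) ≤ mI (D + 1) R := by
    unfold mI
    rw [Ideal.map_span, Ideal.span_le]
    rintro x ⟨y, ⟨i, rfl⟩, rfl⟩
    show sh D lam R (MvPowerSeries.X i) ∈ mI (D + 1) R
    rw [tc_sh_X]
    refine Fin.cases ?_ (fun j => ?_) i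
    · simp only [shv, Fin.cons_zero]
      exact hX 0
    · simp only [shv, Fin.cons_succ]
      exact Ideal.add_mem _ (hX _) (Ideal.mul_mem_left _ _ (hX 0))
  have h2 : Ideal.map (sh D lam R).toRingHom (mI (D + 1) R ^ c) ≤ mI (D + 1) R ^ c := by
    rw [Ideal.map_pow]
    exact Ideal.pow_right_mono h1 c
  exact h2 (Ideal.mem_map_of_mem (sh D lam R).toRingHom hf)

end Vale.Agent.P202T
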