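import Vale.Agent.P202T.Defs

/-! # P202, transfer theorem, module TS: separation, the maximal ideal of `k[[y]]` (helper33) -/

namespace Vale.Agent.P202T

/-- power series without terms of degree `< c` -/
private def tsB (D : ℕ) (R : Type) [CommRing R] (c : ℕ) : Ideal (MvPowerSeries (Fin D) R) where
  carrier := {g | ∀ n : Fin D →₀ ℕ, n.degree < c → MvPowerSeries.coeff n g = 0}
  add_mem' := by
    intro a b ha hb n hn
    rw [map_add, ha n hn, hb n hn, add_zero]
  zero_mem' := by
    intro n _
    rw [map_zero]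
  smul_mem' := by
    intro a b hb n hn
    rw [smul_eq_mul, MvPowerSeries.coeff_mul]
    refine Finset.sum_eq_zero fun p hp => ?_
    rw [Finset.HasAntidiagonal.mem_antidiagonal] at hp
    have h1 : p.1.degree + p.2.degree = n.degree := by rw [← hp, map_add]
    rw [hb p.2 (by omega), mul_zero]

private theorem ts_mem {D : ℕ} {R : Type} [CommRing R] {c : ℕ} {g : MvPowerSeries (Fin D) R} :
    g ∈ tsB D R c ↔ ∀ n : Fin D →₀ ℕ, n.degree < c → MvPowerSeries.coeff n g = 0 := Iff.rfl

private theorem ts_mul {D : ℕ} {R : Type} [CommRing R] {a b : ℕ} {f g : MvPowerSeries (Fin D) R}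
    (hf : f ∈ tsB D R a) (hg : g ∈ tsB D R b) : f * g ∈ tsB D R (a + b) := by
  rw [ts_mem] at hf hg ⊢
  intro n hn
  rw [MvPowerSeries.coeff_mul]
  refine Finset.sum_eq_zero fun p hp => ?_
  rw [Finset.HasAntidiagonal.mem_antidiagonal] at hp
  have h1 : p.1.degree + p.2.degree = n.degree := by rw [← hp, map_add]
  rcases lt_or_ge p.1.degree a with h2 | h2
  · rw [hf p.1 h2, zero_mul]
  · rw [hg p.2 (by omega), mul_zero]

private theorem ts_one (D : ℕ) (R : Type) [CommRing R] : mI D R ≤ tsB D R 1 := by
  unfold mI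
  rw [Ideal.span_le]
  rintro _ ⟨i, rfl⟩
  change MvPowerSeries.X i ∈ tsB D R 1
  rw [ts_mem]
  intro n hn
  classical
  rw [MvPowerSeries.coeff_X, if_neg]
  rintro rfl
  rw [Finsupp.degree_single] at hn
  omega

private theorem ts_pow (D : ℕ) (R : Type) [CommRing R] (c : ℕ) : mI D R ^ c ≤ tsB D R c := by
  induction c with
  | zero =>
    intro f _
    rw [ts_mem]
    intro n hn
    omega
  | succ c ih =>
    rw [pow_succ, Ideal.mul_le]
    intro r hr s hs
    exact ts_mul (ih hr) (ts_one D R hs)

/-- TS: separation -/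
theorem exists_not_mem_proved (D : ℕ) {k : Type} [Field k] (f : MvPowerSeries (Fin D) k)
    (hf : f ≠ 0) : ∃ c, f ∉ mI D k ^ c := by
  by_contra h
  push Not at h
  apply hf
  ext n
  rw [map_zero]
  exact ts_mem.1 (ts_pow D k _ (h (n.degree + 1))) n (Nat.lt_succ_self _)

/-- a power series without constant term is in the ideal of the variables -/
theorem ts_mem_mI (D : ℕ) {R : Type} [CommRing R] (f : MvPowerSeries (Fin D) R)
    (hf : MvPowerSeries.constantCoeff f = 0) : f ∈ mI D R := by
  classical
  let g : Fin D → MvPowerSeries (Fin D) R := fun i m =>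
    if ∀ j < i, m j = 0 then MvPowerSeries.coeff (m + Finsupp.single i 1) f else 0
  have hg : ∀ i m, MvPowerSeries.coeff m (g i) =
      if ∀ j < i, m j = 0 then MvPowerSeries.coeff (m + Finsupp.single i 1) f else 0 :=
    fun i m => rfl
  have hc : ∀ (n : Fin D →₀ ℕ) i, MvPowerSeries.coeff n (MvPowerSeries.X i * g i) =
      if n i ≠ 0 ∧ ∀ j < i, n j = 0 then MvPowerSeries.coeff n f else 0 := by
    intro n i
    rw [MvPowerSeries.X_def, MvPowerSeries.coeff_monomial_mul, one_mul]
    by_cases h1 : n i ≠ 0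
    · have h2 : Finsupp.single i 1 ≤ n := by
        rw [Finsupp.single_le_iff]
        omega
      rw [if_pos h2, hg, tsub_add_cancel_of_le h2]
      have h3 : (∀ j < i, (n - Finsupp.single i 1 : Fin D →₀ ℕ) j = 0) ↔ ∀ j < i, n j = 0 := by
        refine forall_congr' fun j => forall_congr' fun hj => ?_
        rw [Finsupp.tsub_apply, Finsupp.single_eq_of_ne hj.ne, tsub_zero]
      by_cases h4 : ∀ j < i, n j = 0
      · rw [if_pos (h3.2 h4), if_pos ⟨h1, h4⟩]
      · rw [if_neg (fun h => h4 (h3.1 h)), if_neg (fun h => h4 h.2)]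
    · have h2 : ¬ Finsupp.single i 1 ≤ n := by
        rw [Finsupp.single_le_iff]
        omega
      rw [if_neg h2, if_neg (fun h => h1 h.1)]
  have hsum : f = ∑ i, MvPowerSeries.X i * g i := by
    ext n
    rw [map_sum]
    simp only [hc]
    by_cases hn : n = 0
    · subst hn
      rw [Finset.sum_eq_zero fun i _ => by rw [if_neg (fun h => h.1 rfl)],
        MvPowerSeries.coeff_zero_eq_constantCoeff_apply, hf]
    · have hne : (Finset.univ.filter fun i => n i ≠ 0).Nonempty := by
        by_contra h
        rw [Finset.not_nonempty_iff_eq_empty, Finset.filter_eq_empty_iff] at h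
        apply hn
        ext i
        simpa using h (Finset.mem_univ i)
      obtain ⟨i0, hi0, hmin⟩ := Finset.exists_min_image _ (fun i => i) hne
      rw [Finset.mem_filter] at hi0
      have hmin' : ∀ j < i0, n j = 0 := by
        intro j hj
        by_contra h
        exact absurd (hmin j (Finset.mem_filter.2 ⟨Finset.mem_univ j, h⟩)) (not_le.2 hj)
      rw [Finset.sum_eq_single i0, if_pos ⟨hi0.2, hmin'⟩]
      · intro i _ hi
        rw [if_neg]
        rintro ⟨h1, h2⟩
        rcases lt_trichotomy i i0 with h3 | h3 | h3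
        · exact h1 (hmin' i h3)
        · exact hi h3
        · exact hi0.2 (h2 i0 h3)
      · intro h
        exact absurd (Finset.mem_univ i0) h
  rw [hsum]
  refine Ideal.sum_mem _ fun i _ => Ideal.mul_mem_right _ _ ?_
  exact Ideal.subset_span ⟨i, rfl⟩

theorem ts_constantCoeff_of_mem {D : ℕ} {R : Type} [CommRing R] {f : MvPowerSeries (Fin D) R}
    (hf : f ∈ mI D R) : MvPowerSeries.constantCoeff f = 0 := by
  have h1 := ts_mem.1 (ts_one D R hf) 0 (by simp)
  rwa [MvPowerSeries.coeff_zero_eq_constantCoeff_apply] at h1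

/-- TM: the maximal ideal -/
theorem maximalIdeal_eq_proved (D : ℕ) (k : Type) [Field k] :
    IsLocalRing.maximalIdeal (MvPowerSeries (Fin D) k) = mI D k := by
  ext f
  rw [IsLocalRing.mem_maximalIdeal, mem_nonunits_iff, MvPowerSeries.isUnit_iff_constantCoeff,
    isUnit_iff_ne_zero, not_not]
  exact ⟨ts_mem_mI D f, ts_constantCoeff_of_mem⟩

end Vale.Agent.P202T
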