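import Vale.Agent.P202T.Defs

/-! # P202, transfer theorem: the universal system -/

namespace Vale.Agent.P202T

open Polynomial

private theorem tu_monic {A : Type} [CommRing A] {s : ℕ} (u : Fin s → A) : (Wp u).Monic :=
  monic_X_pow_add (degree_sum_fin_lt u)

private theorem tu_monic2 {A : Type} [CommRing A] {s : ℕ} (u : Fin s → A) (c : ℕ) :
    (X ^ c * Wp u ^ 2 : A[X]).Monic :=
  (monic_X_pow c).mul ((tu_monic u).pow 2)

private theorem tu_map {A B : Type} [CommRing A] [CommRing B] (φ : A →+* B) {s : ℕ}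
    (u : Fin s → A) : (Wp u).map φ = Wp (fun l => φ (u l)) := by
  simp [Wp, Polynomial.map_sum]

private theorem tu_mapT {A B : Type} [CommRing A] [CommRing B] (φ : A →+* B) {M n : ℕ}
    (u : Fin M × Fin n → A) (j : Fin M) : (Tp u j).map φ = Tp (fun p => φ (u p)) j := by
  simp [Tp, Polynomial.map_sum]

private theorem tu_bq {A B R0 : Type} [CommRing A] [CommRing B] [CommRing R0] (D : ℕ)
    (γ : MvPolynomial (Fin D) R0 →+* A) (φ : A →+* B) (a : MvPolynomial (Fin (D + 1)) R0) :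
    (bq D γ a).map φ = bq D (φ.comp γ) a := by
  have h : (mapRingHom φ).comp (bq D γ) = bq D (φ.comp γ) := by
    refine MvPolynomial.ringHom_ext (fun r => ?_) (fun i => ?_)
    · simp [bq]
    · refine Fin.cases ?_ (fun i => ?_) i
      · simp [bq]
      · simp [bq]
  exact congrArg (fun f : MvPolynomial (Fin (D + 1)) R0 →+* B[X] => f a) h

private theorem tu_ev {A B R0 : Type} [CommRing A] [CommRing B] [CommRing R0] (D M n : ℕ)
    (γ : MvPolynomial (Fin D) R0 →+* A) (φ : A →+* B) (u : Fin M × Fin n → A)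
    (q : MvPolynomial (Fin M) (MvPolynomial (Fin (D + 1)) R0)) :
    (ev (bq D γ) (Tp u) q).map φ = ev (bq D (φ.comp γ)) (Tp (fun p => φ (u p))) q := by
  have h : (mapRingHom φ).comp (ev (bq D γ) (Tp u)) =
      ev (bq D (φ.comp γ)) (Tp (fun p => φ (u p))) := by
    refine MvPolynomial.ringHom_ext (fun r => ?_) (fun i => ?_)
    · have h1 := tu_bq D γ φ r
      simpa [ev] using h1
    · have h1 := tu_mapT φ u i
      simpa [ev] using h1
  exact congrArg
    (fun f : MvPolynomial (Fin M) (MvPolynomial (Fin (D + 1)) R0) →+* B[X] => f q) h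

private theorem tu_coeff {A B : Type} [CommRing A] [CommRing B] (φ : A →+* B) (p m : A[X])
    (hm : m.Monic) [DecidableEq A] :
    (∀ f ∈ (p %ₘ m).support.image (p %ₘ m).coeff, φ f = 0) ↔ m.map φ ∣ p.map φ := by
  rw [← modByMonic_eq_zero_iff_dvd (hm.map φ), ← map_modByMonic _ hm]
  constructor
  · intro h
    ext i
    rw [coeff_map, coeff_zero]
    by_cases hi : i ∈ (p %ₘ m).support
    · exact h _ (Finset.mem_image_of_mem _ hi)
    · rw [notMem_support_iff.1 hi, map_zero]
  · intro h f hf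
    obtain ⟨i, -, rfl⟩ := Finset.mem_image.1 hf
    rw [← coeff_map, h, coeff_zero]

/-- TU: the universal system (coefficients of the remainders `%ₘ` over the universal ring; `Polynomial.map_modByMonic`,
`Polynomial.modByMonic_eq_zero_iff_dvd`). -/
theorem usys {R0 : Type} [CommRing R0] (D M s n c : ℕ) (Q : Finset (MvPolynomial (Fin M) (MvPolynomial (Fin (D + 1)) R0)))
    (δ : MvPolynomial (Fin M) (MvPolynomial (Fin (D + 1)) R0)) :
    ∃ F : Finset (MvPolynomial (Fin s ⊕ (Fin M × Fin n)) (MvPolynomial (Fin D) R0)),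
      ∀ (A : Type) [CommRing A] (γ : MvPolynomial (Fin D) R0 →+* A) (u : Fin s ⊕ (Fin M × Fin n) → A),
        (∀ f ∈ F, ev γ u f = 0) ↔
          ((∀ q ∈ Q, X ^ c * Wp (fun l => u (Sum.inl l)) ^ 2 ∣ ev (bq D γ) (Tp (fun p => u (Sum.inr p))) q) ∧
            Wp (fun l => u (Sum.inl l)) ∣ ev (bq D γ) (Tp (fun p => u (Sum.inr p))) δ) := by
  classical
  let U := MvPolynomial (Fin s ⊕ (Fin M × Fin n)) (MvPolynomial (Fin D) R0)
  let γu : MvPolynomial (Fin D) R0 →+* U := MvPolynomial.C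
  let wu : Fin s → U := fun l => MvPolynomial.X (Sum.inl l)
  let tu : Fin M × Fin n → U := fun p => MvPolynomial.X (Sum.inr p)
  let P : MvPolynomial (Fin M) (MvPolynomial (Fin (D + 1)) R0) → U[X] := fun q =>
    ev (bq D γu) (Tp tu) q
  refine ⟨(Q.biUnion fun q => (P q %ₘ (X ^ c * Wp wu ^ 2)).support.image
    (P q %ₘ (X ^ c * Wp wu ^ 2)).coeff) ∪ (P δ %ₘ Wp wu).support.image (P δ %ₘ Wp wu).coeff, ?_⟩
  intro A _ γ u
  have hγ : (ev γ u).comp γu = γ := by
    ext r
    · simp [ev, γu]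
    · simp [ev, γu]
  have hw : ∀ l, ev γ u (wu l) = u (Sum.inl l) := fun l => by simp [ev, wu]
  have ht : ∀ p, ev γ u (tu p) = u (Sum.inr p) := fun p => by simp [ev, tu]
  have hP : ∀ q, (P q).map (ev γ u) = ev (bq D γ) (Tp (fun p => u (Sum.inr p))) q := by
    intro q
    have h1 := tu_ev D M n γu (ev γ u) tu q
    rw [hγ] at h1
    simp only [ht] at h1
    exact h1
  have hW : (Wp wu).map (ev γ u) = Wp (fun l => u (Sum.inl l)) := by
    have h1 := tu_map (ev γ u) wu
    simp only [hw] at h1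
    exact h1
  have hW2 : (X ^ c * Wp wu ^ 2 : U[X]).map (ev γ u) =
      X ^ c * Wp (fun l => u (Sum.inl l)) ^ 2 := by
    rw [Polynomial.map_mul, Polynomial.map_pow, Polynomial.map_pow, map_X, hW]
  constructor
  · intro h
    refine ⟨fun q hq => ?_, ?_⟩
    · rw [← hP, ← hW2, ← tu_coeff _ _ _ (tu_monic2 wu c)]
      intro f hf
      exact h f (Finset.mem_union_left _ (Finset.mem_biUnion.2 ⟨q, hq, hf⟩))
    · rw [← hP, ← hW, ← tu_coeff _ _ _ (tu_monic wu)]
      intro f hf
      exact h f (Finset.mem_union_right _ hf)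
  · rintro ⟨h1, h2⟩ f hf
    rcases Finset.mem_union.1 hf with hf | hf
    · obtain ⟨q, hq, hf⟩ := Finset.mem_biUnion.1 hf
      have h3 := h1 q hq
      rw [← hP, ← hW2, ← tu_coeff _ _ _ (tu_monic2 wu c)] at h3
      exact h3 f hf
    · rw [← hP, ← hW, ← tu_coeff _ _ _ (tu_monic wu)] at h2
      exact h2 f hf

end Vale.Agent.P202T
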