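import Vale.Agent.P202T.Defs

/-! # P202, transfer theorem: Weierstrass data -/

namespace Vale.Agent.P202T

open Polynomial

section

variable {A : Type} [CommRing A] [IsLocalRing A]

private theorem tw_order {P : A[X]} (hP : P.IsDistinguishedAt (IsLocalRing.maximalIdeal A)) :
    ((P : PowerSeries A).map (Ideal.Quotient.mk (IsLocalRing.maximalIdeal A))).order.toNat =
      P.natDegree := by
  have h := hP.coe_natDegree_eq_order_map (P : PowerSeries A) 1 (by
    rw [map_one]
    exact fun h => (IsLocalRing.maximalIdeal.isMaximal A).ne_top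
      ((Ideal.eq_top_iff_one _).2 h)) (by rw [mul_one])
  rw [← h]
  rfl

private theorem tw_dvd {P : A[X]} (hP : P.IsDistinguishedAt (IsLocalRing.maximalIdeal A))
    [IsHausdorff (IsLocalRing.maximalIdeal A) A] (q : A[X])
    (h : (P : PowerSeries A) ∣ (q : PowerSeries A)) : P ∣ q := by
  rw [← modByMonic_eq_zero_iff_dvd hP.monic]
  obtain ⟨g, hg⟩ := h
  have h1 : ((q %ₘ P + P * (q /ₘ P) : A[X]) : PowerSeries A) = (q : PowerSeries A) := by
    rw [modByMonic_add_div]
  rw [Polynomial.coe_add, Polynomial.coe_mul, hg] at h1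
  have h2 : (P : PowerSeries A) * (g - ((q /ₘ P : A[X]) : PowerSeries A)) =
      ((q %ₘ P : A[X]) : PowerSeries A) := by
    rw [mul_sub, ← h1]
    ring
  refine (hP.isWeierstrassDivisorAt'.eq_zero_of_mul_eq ?_ h2).2
  rw [tw_order hP, ← degree_eq_natDegree hP.monic.ne_zero]
  exact degree_modByMonic_lt q hP.monic

private theorem tw_div {P : A[X]} (hP : P.IsDistinguishedAt (IsLocalRing.maximalIdeal A))
    [IsAdicComplete (IsLocalRing.maximalIdeal A) A] (t : PowerSeries A) :
    ∃ r : A[X], r.degree < P.natDegree ∧ (P : PowerSeries A) ∣ t - (r : PowerSeries A) := by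
  have h := hP.isWeierstrassDivisorAt'.isWeierstrassDivisionAt_div_mod t
  have h1 := h.degree_lt
  rw [tw_order hP] at h1
  refine ⟨_, h1, hP.isWeierstrassDivisorAt'.div t, ?_⟩
  rw [sub_eq_iff_eq_add]
  exact h.eq_mul_add

private theorem tw_Xpow (c : ℕ) :
    (X ^ c : A[X]).IsDistinguishedAt (IsLocalRing.maximalIdeal A) := by
  refine ⟨⟨fun {n} hn => ?_⟩, monic_X_pow c⟩
  rw [natDegree_X_pow] at hn
  rw [coeff_X_pow, if_neg hn.ne]
  exact Ideal.zero_mem _

omit [IsLocalRing A] in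
private theorem tw_sum (n : ℕ) (r : A[X]) (hr : r.degree < n) :
    ∑ l : Fin n, C (r.coeff l) * X ^ (l : ℕ) = r := by
  rw [Fin.sum_univ_eq_sum_range (fun l => C (r.coeff l) * X ^ l) n]
  ext i
  rw [finsetSum_coeff]
  simp only [coeff_C_mul, coeff_X_pow, mul_ite, mul_one, mul_zero, Finset.sum_ite_eq,
    Finset.mem_range]
  split_ifs with hi
  · rfl
  · refine (coeff_eq_zero_of_degree_lt (lt_of_lt_of_le hr ?_)).symm
    exact_mod_cast not_lt.1 hi

end

/-- TW: Weierstrass data (Mathlib.RingTheory.PowerSeries.WeierstrassPreparation). -/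
theorem wdata {A : Type} [CommRing A] [IsLocalRing A] [IsAdicComplete (IsLocalRing.maximalIdeal A) A]
    (d : PowerSeries A) (s : ℕ) (hd1 : ∀ i < s, PowerSeries.coeff i d ∈ IsLocalRing.maximalIdeal A)
    (hd2 : PowerSeries.coeff s d ∉ IsLocalRing.maximalIdeal A) (c : ℕ) :
    ∃ w : Fin s → A, (∀ l, w l ∈ IsLocalRing.maximalIdeal A) ∧ ((Wp w : A[X]) : PowerSeries A) ∣ d ∧
      (∀ t : PowerSeries A, ∃ u : Fin (2 * s + c) → A,
        ((X ^ c * Wp w ^ 2 : A[X]) : PowerSeries A) ∣ t - ((∑ l, C (u l) * X ^ (l : ℕ) : A[X]) : PowerSeries A)) ∧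
      (∀ q : A[X], ((X ^ c * Wp w ^ 2 : A[X]) : PowerSeries A) ∣ (q : PowerSeries A) → X ^ c * Wp w ^ 2 ∣ q) ∧
      (∀ q : A[X], ((Wp w : A[X]) : PowerSeries A) ∣ (q : PowerSeries A) → Wp w ∣ q) := by
  have hord : (d.map (IsLocalRing.residue A)).order = s := by
    rw [PowerSeries.order_eq_nat]
    refine ⟨?_, fun i hi => ?_⟩
    · rw [PowerSeries.coeff_map]
      exact fun h => hd2 ((IsLocalRing.residue_eq_zero_iff _).1 h)
    · rw [PowerSeries.coeff_map]
      exact (IsLocalRing.residue_eq_zero_iff _).2 (hd1 i hi)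
  have hne : d.map (IsLocalRing.residue A) ≠ 0 := by
    intro h
    rw [h, PowerSeries.order_zero] at hord
    exact (ENat.natCast_ne_top s hord.symm).elim
  obtain ⟨W, h, hW⟩ := d.exists_isWeierstrassFactorization hne
  have hdist := hW.isDistinguishedAt
  have hdeg : W.natDegree = s := by
    rw [hW.natDegree_eq_toNat_order_map, hord]
    rfl
  have hWp : Wp (fun l : Fin s => W.coeff l) = W := by
    have h1 := hdist.monic.as_sum
    rw [hdeg] at h1
    unfold Wp
    rw [Fin.sum_univ_eq_sum_range (fun l => C (W.coeff l) * X ^ l) s]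
    exact h1.symm
  have hP : (X ^ c * W ^ 2).IsDistinguishedAt (IsLocalRing.maximalIdeal A) := by
    rw [pow_two]
    exact (tw_Xpow c).mul (hdist.mul hdist)
  have hPd : (X ^ c * W ^ 2).natDegree = 2 * s + c := by
    rw [(monic_X_pow c).natDegree_mul (hdist.monic.pow 2), natDegree_X_pow,
      hdist.monic.natDegree_pow, hdeg, add_comm]
  refine ⟨fun l => W.coeff l, fun l => ?_, ?_, ?_, ?_, ?_⟩
  · exact hdist.mem (by rw [hdeg]; exact l.2)
  · rw [hWp]
    exact ⟨h, hW.eq_mul⟩
  · intro t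
    rw [hWp]
    obtain ⟨r, hr1, hr2⟩ := tw_div hP t
    rw [hPd] at hr1
    refine ⟨fun l => r.coeff l, ?_⟩
    rw [tw_sum _ r hr1]
    exact hr2
  · intro q hq
    rw [hWp] at hq ⊢
    exact tw_dvd hP q hq
  · intro q hq
    rw [hWp] at hq ⊢
    exact tw_dvd hdist q hq

end Vale.Agent.P202T
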