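import Vale.Agent.P202T.Defs
import Vale.Agent.P202T.TU
import Vale.Agent.P202T.TW
import Vale.Agent.P202T.TS

/-! # P202, transfer theorem, module TE: the Weierstrass step (helper48) -/

namespace Vale.Agent.P202T


/-- evaluation commutes with ring homs -/
theorem ev_comp' {R1 C E ι : Type} [CommRing R1] [CommRing C] [CommRing E] (γ : R1 →+* C) (T : ι → C) (φ : C →+* E)
    (q : MvPolynomial ι R1) : φ (ev γ T q) = ev (φ.comp γ) (fun i => φ (T i)) q := by
  have h : φ.comp (ev γ T) = ev (φ.comp γ) (fun i => φ (T i)) := by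
    apply MvPolynomial.ringHom_ext
    · intro r; simp [ev]
    · intro i; simp [ev]
  exact congrArg (fun f : MvPolynomial ι R1 →+* E => f q) h

theorem ev_congr' {R1 C ι : Type} [CommRing R1] [CommRing C] (γ : R1 →+* C) (T T' : ι → C) (J : Ideal C)
    (h : ∀ i, T i - T' i ∈ J) (q : MvPolynomial ι R1) : ev γ T q - ev γ T' q ∈ J := by
  rw [← Ideal.Quotient.eq, ev_comp', ev_comp']
  congr 2
  funext i
  exact Ideal.Quotient.eq.mpr (h i)

/-- the isomorphism -/
noncomputable abbrev Ph (D : ℕ) (R : Type) [CommRing R] :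
    MvPowerSeries (Fin (D + 1)) R ≃ₐ[R] PowerSeries (MvPowerSeries (Fin D) R) :=
  MvPowerSeries.finSuccEquiv R D

theorem Ph_map (D : ℕ) {R S : Type} [CommRing R] [CommRing S] (φ : R →+* S) (f : MvPowerSeries (Fin (D + 1)) R) :
    Ph D S (MvPowerSeries.map φ f) = PowerSeries.map (MvPowerSeries.map φ) (Ph D R f) := by
  ext n x
  rw [MvPowerSeries.coeff_coeff_finSuccEquiv, PowerSeries.coeff_map, MvPowerSeries.coeff_map, MvPowerSeries.coeff_map,
    MvPowerSeries.coeff_coeff_finSuccEquiv]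

theorem Ph_bs (D : ℕ) (R0 R : Type) [CommRing R0] [CommRing R] [Algebra R0 R] (g : MvPolynomial (Fin (D + 1)) R0) :
    Ph D R (bs (D + 1) R0 R g) = ((bq D (bs D R0 R) g : Polynomial (MvPowerSeries (Fin D) R)) : PowerSeries (MvPowerSeries (Fin D) R)) := by
  have h : ((Ph D R : MvPowerSeries (Fin (D + 1)) R ≃ₐ[R] PowerSeries (MvPowerSeries (Fin D) R)) : MvPowerSeries (Fin (D + 1)) R →+* PowerSeries (MvPowerSeries (Fin D) R)).comp (bs (D + 1) R0 R) =
      (Polynomial.coeToPowerSeries.ringHom).comp (bq D (bs D R0 R)) := by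
    apply MvPolynomial.ringHom_ext
    · intro r
      have e1 : bs (D + 1) R0 R (MvPolynomial.C r) = MvPowerSeries.C (algebraMap R0 R r) := by
        simp [bs, MvPowerSeries.algebraMap_apply]
      have e2 : bs D R0 R (MvPolynomial.C r) = MvPowerSeries.C (algebraMap R0 R r) := by
        simp [bs, MvPowerSeries.algebraMap_apply]
      simp only [RingHom.comp_apply, RingHom.coe_coe, e1]
      simp [bq, e2, Ph]
    · intro i
      refine Fin.cases ?_ (fun i => ?_) i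
      · simp [bs, bq, Ph]
      · simp [bs, bq, Ph]
  exact congrArg (fun f : MvPolynomial (Fin (D + 1)) R0 →+* PowerSeries (MvPowerSeries (Fin D) R) => f g) h

theorem Ph_ev (D : ℕ) (R0 R : Type) [CommRing R0] [CommRing R] [Algebra R0 R] {M : ℕ}
    (t : Fin M → Polynomial (MvPowerSeries (Fin D) R)) (T : Fin M → MvPowerSeries (Fin (D + 1)) R)
    (hT : ∀ j, Ph D R (T j) = (t j : PowerSeries (MvPowerSeries (Fin D) R)))
    (q : MvPolynomial (Fin M) (MvPolynomial (Fin (D + 1)) R0)) :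
    Ph D R (ev (bs (D + 1) R0 R) T q) = ((ev (bq D (bs D R0 R)) t q : Polynomial (MvPowerSeries (Fin D) R)) : PowerSeries (MvPowerSeries (Fin D) R)) := by
  have h1 := ev_comp' (bs (D + 1) R0 R) T ((Ph D R : MvPowerSeries (Fin (D + 1)) R ≃ₐ[R] PowerSeries (MvPowerSeries (Fin D) R)) : MvPowerSeries (Fin (D + 1)) R →+* PowerSeries (MvPowerSeries (Fin D) R)) q
  have h2 := ev_comp' (bq D (bs D R0 R)) t (Polynomial.coeToPowerSeries.ringHom) q
  have h3 : ((Ph D R : MvPowerSeries (Fin (D + 1)) R ≃ₐ[R] PowerSeries (MvPowerSeries (Fin D) R)) : MvPowerSeries (Fin (D + 1)) R →+* PowerSeries (MvPowerSeries (Fin D) R)).comp (bs (D + 1) R0 R) =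
      (Polynomial.coeToPowerSeries.ringHom).comp (bq D (bs D R0 R)) := by
    apply RingHom.ext
    intro g
    exact Ph_bs D R0 R g
  have h4 : (fun i => ((Ph D R : MvPowerSeries (Fin (D + 1)) R ≃ₐ[R] PowerSeries (MvPowerSeries (Fin D) R)) : MvPowerSeries (Fin (D + 1)) R →+* PowerSeries (MvPowerSeries (Fin D) R)) (T i)) =
      fun i => Polynomial.coeToPowerSeries.ringHom (t i) := by
    funext i
    exact hT i
  rw [h3, h4, ← h2] at h1
  exact h1

/-- `Φ⁻¹ ∘ C` maps powers of the ideal of variables into powers -/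
theorem Ph_symm_C_mem (D : ℕ) (R : Type) [CommRing R] (c : ℕ) (f : MvPowerSeries (Fin D) R) (hf : f ∈ mI D R ^ c) :
    (Ph D R).symm (PowerSeries.C f) ∈ mI (D + 1) R ^ c := by
  let ψ : MvPowerSeries (Fin D) R →+* MvPowerSeries (Fin (D + 1)) R :=
    (((Ph D R).symm : PowerSeries (MvPowerSeries (Fin D) R) ≃ₐ[R] MvPowerSeries (Fin (D + 1)) R) : PowerSeries (MvPowerSeries (Fin D) R) →+* MvPowerSeries (Fin (D + 1)) R).comp
      (PowerSeries.C)
  have h1 : Ideal.map ψ (mI D R) ≤ mI (D + 1) R := by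
    unfold mI
    rw [Ideal.map_span, Ideal.span_le]
    rintro _ ⟨_, ⟨i, rfl⟩, rfl⟩
    have : ψ (MvPowerSeries.X i) = MvPowerSeries.X i.succ := by
      change (Ph D R).symm (PowerSeries.C (MvPowerSeries.X i)) = _
      rw [AlgEquiv.symm_apply_eq]
      simp [Ph]
    rw [this]
    exact Ideal.subset_span ⟨_, rfl⟩
  have h2 : ψ f ∈ Ideal.map ψ (mI D R ^ c) := Ideal.mem_map_of_mem _ hf
  rw [Ideal.map_pow] at h2
  exact Ideal.pow_right_mono h1 c h2

theorem Ph_symm_X (D : ℕ) (R : Type) [CommRing R] : (Ph D R).symm PowerSeries.X = MvPowerSeries.X 0 := by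
  rw [AlgEquiv.symm_apply_eq]; simp [Ph]

theorem cc_coeff_Ph (D : ℕ) (R : Type) [CommRing R] (f : MvPowerSeries (Fin (D + 1)) R) (i : ℕ) :
    MvPowerSeries.constantCoeff (PowerSeries.coeff i (Ph D R f)) = MvPowerSeries.coeff (Finsupp.single 0 i) f := by
  rw [← MvPowerSeries.coeff_zero_eq_constantCoeff_apply, MvPowerSeries.coeff_coeff_finSuccEquiv]
  congr 2
  ext j
  refine Fin.cases ?_ (fun j => ?_) j
  · simp
  · simp

/-- the reduction `A[X] → k[X]` through constant coefficients -/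
noncomputable def rd (D : ℕ) {R k : Type} [CommRing R] [CommRing k] (φ : R →+* k) :
    Polynomial (MvPowerSeries (Fin D) R) →+* Polynomial k :=
  Polynomial.mapRingHom (φ.comp (MvPowerSeries.constantCoeff (σ := Fin D) (R := R)))

theorem rd_bq (D : ℕ) (R0 : Type) {R k : Type} [CommRing R0] [CommRing R] [CommRing k] [Algebra R0 R] [Algebra R0 k]
    (φ : R →+* k) (hφ : ∀ r : R0, φ (algebraMap R0 R r) = algebraMap R0 k r) (g : MvPolynomial (Fin (D + 1)) R0) :
    rd D φ (bq D (bs D R0 R) g) = rd D (RingHom.id k) (bq D (bs D R0 k) g) := by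
  have h : (rd D φ).comp (bq D (bs D R0 R)) = (rd D (RingHom.id k)).comp (bq D (bs D R0 k)) := by
    apply MvPolynomial.ringHom_ext
    · intro r
      simp [bq, bs, rd, MvPowerSeries.algebraMap_apply, hφ]
    · intro i
      refine Fin.cases ?_ (fun i => ?_) i
      · simp [bq, bs, rd]
      · simp [bq, bs, rd]
  exact congrArg (fun f : MvPolynomial (Fin (D + 1)) R0 →+* Polynomial k => f g) h

theorem rd_Tp (D : ℕ) {R k : Type} [CommRing R] [CommRing k] (φ : R →+* k) {M n : ℕ} (u : Fin M × Fin n → MvPowerSeries (Fin D) R)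
    (j : Fin M) : rd D φ (Tp u j) = ∑ l, Polynomial.C (φ (MvPowerSeries.constantCoeff (u (j, l)))) * Polynomial.X ^ (l : ℕ) := by
  simp [rd, Tp, Polynomial.map_sum]

theorem rd_Wp (D : ℕ) {R k : Type} [CommRing R] [CommRing k] (φ : R →+* k) {s : ℕ} (u : Fin s → MvPowerSeries (Fin D) R)
    (hu : ∀ l, φ (MvPowerSeries.constantCoeff (u l)) = 0) : rd D φ (Wp u) = Polynomial.X ^ s := by
  simp [rd, Wp, Polynomial.map_sum, hu]

/-- membership in a power `≥ 1` of the ideal of variables kills the constant coefficient -/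
theorem cc_mI (D : ℕ) {k : Type} [CommRing k] (c : ℕ) (hc : 1 ≤ c) (f : MvPowerSeries (Fin D) k) (hf : f ∈ mI D k ^ c) :
    MvPowerSeries.constantCoeff f = 0 := by
  have h1 : f ∈ mI D k := Ideal.pow_le_self (by omega) hf
  have h2 : mI D k ≤ RingHom.ker (MvPowerSeries.constantCoeff (σ := Fin D) (R := k)) := by
    unfold mI
    rw [Ideal.span_le]
    rintro _ ⟨i, rfl⟩
    simp [RingHom.mem_ker]
  exact h2 h1

/-- compatibility of `bs` with coefficient maps -/
theorem map_bs (D : ℕ) (R0 : Type) {R S : Type} [CommRing R0] [CommRing R] [CommRing S] [Algebra R0 R] [Algebra R0 S]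
    (φ : R →+* S) (hφ : ∀ r : R0, φ (algebraMap R0 R r) = algebraMap R0 S r) (g : MvPolynomial (Fin D) R0) :
    MvPowerSeries.map φ (bs D R0 R g) = bs D R0 S g := by
  have h : (MvPowerSeries.map φ).comp (bs D R0 R) = bs D R0 S := by
    apply MvPolynomial.ringHom_ext
    · intro r
      simp [bs, MvPowerSeries.algebraMap_apply, hφ]
    · intro i
      simp [bs]
  exact congrArg (fun f : MvPolynomial (Fin D) R0 →+* MvPowerSeries (Fin D) S => f g) h

theorem map_ev (D : ℕ) (R0 : Type) {R S ι : Type} [CommRing R0] [CommRing R] [CommRing S] [Algebra R0 R] [Algebra R0 S]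
    (φ : R →+* S) (hφ : ∀ r : R0, φ (algebraMap R0 R r) = algebraMap R0 S r) (T : ι → MvPowerSeries (Fin D) R)
    (q : MvPolynomial ι (MvPolynomial (Fin D) R0)) :
    MvPowerSeries.map φ (ev (bs D R0 R) T q) = ev (bs D R0 S) (fun i => MvPowerSeries.map φ (T i)) q := by
  rw [ev_comp']
  have : (MvPowerSeries.map φ).comp (bs D R0 R) = bs D R0 S := RingHom.ext (map_bs D R0 φ hφ)
  rw [this]

theorem hmem' (D : ℕ) {k : Type} [Field k] (f : MvPowerSeries (Fin D) k) :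
    f ∈ IsLocalRing.maximalIdeal (MvPowerSeries (Fin D) k) ↔ MvPowerSeries.constantCoeff f = 0 := by
  rw [IsLocalRing.mem_maximalIdeal, mem_nonunits_iff, MvPowerSeries.isUnit_iff_constantCoeff, isUnit_iff_ne_zero, not_not]

open Polynomial in
theorem hdiff' (D : ℕ) {k : Type} [Field k] {M n : ℕ} (a : (MvPowerSeries (Fin D) k)[X]) (T0 : Fin M → MvPowerSeries (Fin (D + 1)) k)
    (r0 : Fin M × Fin n → MvPowerSeries (Fin D) k)
    (hr0 : ∀ j, (a : PowerSeries (MvPowerSeries (Fin D) k)) ∣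
        Ph D k (T0 j) - ((Tp r0 j : (MvPowerSeries (Fin D) k)[X]) : PowerSeries (MvPowerSeries (Fin D) k))) (j : Fin M) :
    T0 j - (Ph D k).symm ((Tp r0 j : (MvPowerSeries (Fin D) k)[X]) : PowerSeries (MvPowerSeries (Fin D) k)) ∈
      Ideal.span {(Ph D k).symm (a : PowerSeries (MvPowerSeries (Fin D) k))} := by
  rw [Ideal.mem_span_singleton]
  obtain ⟨e, he⟩ := hr0 j
  refine ⟨(Ph D k).symm e, ?_⟩
  apply (Ph D k).injective
  rw [map_sub, map_mul, AlgEquiv.apply_symm_apply, AlgEquiv.apply_symm_apply, AlgEquiv.apply_symm_apply, he]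

open Polynomial in
theorem hA' (D : ℕ) {k R0 : Type} [Field k] [CommRing R0] [Algebra R0 k] {M n : ℕ} (a : (MvPowerSeries (Fin D) k)[X])
    (T0 : Fin M → MvPowerSeries (Fin (D + 1)) k) (r0 : Fin M × Fin n → MvPowerSeries (Fin D) k)
    (hr0 : ∀ j, (a : PowerSeries (MvPowerSeries (Fin D) k)) ∣
        Ph D k (T0 j) - ((Tp r0 j : (MvPowerSeries (Fin D) k)[X]) : PowerSeries (MvPowerSeries (Fin D) k)))
    (q : MvPolynomial (Fin M) (MvPolynomial (Fin (D + 1)) R0)) :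
    (a : PowerSeries (MvPowerSeries (Fin D) k)) ∣ Ph D k (ev (bs (D + 1) R0 k) T0 q) -
          ((ev (bq D (bs D R0 k)) (Tp r0) q : (MvPowerSeries (Fin D) k)[X]) : PowerSeries (MvPowerSeries (Fin D) k)) := by
  have h1 := ev_congr' (bs (D + 1) R0 k) T0 _ _ (hdiff' D a T0 r0 hr0) q
  rw [Ideal.mem_span_singleton] at h1
  obtain ⟨e, he⟩ := h1
  refine ⟨Ph D k e, ?_⟩
  rw [← Ph_ev D R0 k (Tp r0) _ (fun j => (Ph D k).apply_symm_apply _) q, ← map_sub, he, map_mul, AlgEquiv.apply_symm_apply]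

open Polynomial in
/-- first half: the Weierstrass data and the polynomial divisibilities -/
theorem wstep_a (D : ℕ) {k R0 : Type} [Field k] [CommRing R0] [Algebra R0 k] {M : ℕ}
    (Q : Finset (MvPolynomial (Fin M) (MvPolynomial (Fin (D + 1)) R0)))
    (δ : MvPolynomial (Fin M) (MvPolynomial (Fin (D + 1)) R0)) (T0 : Fin M → MvPowerSeries (Fin (D + 1)) k)
    (hQ : ∀ q ∈ Q, ev (bs (D + 1) R0 k) T0 q = 0) (s : ℕ)
    (hs : MvPowerSeries.coeff (Finsupp.single 0 s) (ev (bs (D + 1) R0 k) T0 δ) ≠ 0)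
    (hmin : ∀ i < s, MvPowerSeries.coeff (Finsupp.single 0 i) (ev (bs (D + 1) R0 k) T0 δ) = 0) (c : ℕ) :
    ∃ (w0 : Fin s → MvPowerSeries (Fin D) k) (r0 : Fin M × Fin (2 * s + c) → MvPowerSeries (Fin D) k),
      (∀ l, MvPowerSeries.constantCoeff (w0 l) = 0) ∧
      (∀ j, ((X ^ c * Wp w0 ^ 2 : (MvPowerSeries (Fin D) k)[X]) : PowerSeries (MvPowerSeries (Fin D) k)) ∣
        Ph D k (T0 j) - ((Tp r0 j : (MvPowerSeries (Fin D) k)[X]) : PowerSeries (MvPowerSeries (Fin D) k))) ∧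
      (∀ q ∈ Q, X ^ c * Wp w0 ^ 2 ∣ ev (bq D (bs D R0 k)) (Tp r0) q) ∧
      Wp w0 ∣ ev (bq D (bs D R0 k)) (Tp r0) δ := by
  have : IsAdicComplete (IsLocalRing.maximalIdeal (MvPowerSeries (Fin D) k)) (MvPowerSeries (Fin D) k) := by
    rw [maximalIdeal_eq_proved]; unfold mI; infer_instance
  obtain ⟨w0, hw0, hWd, hdiv, hpoly1, hpoly2⟩ := wdata (Ph D k (ev (bs (D + 1) R0 k) T0 δ)) s
    (fun i hi => by rw [hmem', cc_coeff_Ph]; exact hmin i hi) (by rw [hmem', cc_coeff_Ph]; exact hs) c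
  choose r0' hr0' using fun j => hdiv (Ph D k (T0 j))
  obtain ⟨r0, hr0⟩ : ∃ r0 : Fin M × Fin (2 * s + c) → MvPowerSeries (Fin D) k,
      ∀ j, ((X ^ c * Wp w0 ^ 2 : (MvPowerSeries (Fin D) k)[X]) : PowerSeries (MvPowerSeries (Fin D) k)) ∣
        Ph D k (T0 j) - ((Tp r0 j : (MvPowerSeries (Fin D) k)[X]) : PowerSeries (MvPowerSeries (Fin D) k)) :=
    ⟨fun p => r0' p.1 p.2, fun j => hr0' j⟩
  refine ⟨w0, r0, fun l => (hmem' D _).mp (hw0 l), hr0, ?_, ?_⟩
  · intro q hq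
    apply hpoly1
    have h1 := hA' D _ T0 r0 hr0 q
    rw [hQ q hq, map_zero, zero_sub, dvd_neg] at h1
    exact h1
  · apply hpoly2
    have h1 : ((Wp w0 : (MvPowerSeries (Fin D) k)[X]) : PowerSeries (MvPowerSeries (Fin D) k)) ∣
        ((X ^ c * Wp w0 ^ 2 : (MvPowerSeries (Fin D) k)[X]) : PowerSeries (MvPowerSeries (Fin D) k)) := by
      refine ⟨((X ^ c * Wp w0 : (MvPowerSeries (Fin D) k)[X]) : PowerSeries (MvPowerSeries (Fin D) k)), ?_⟩
      rw [← Polynomial.coe_mul]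
      congr 1
      ring
    have h2 := dvd_sub hWd (h1.trans (hA' D _ T0 r0 hr0 δ))
    rwa [sub_sub_cancel] at h2

open Polynomial in
/-- the key coefficient -/
theorem wstep_b (D : ℕ) {k R0 R : Type} [Field k] [CommRing R0] [Algebra R0 k] [CommRing R] [Algebra R0 R] {M s c : ℕ} (hc : 1 ≤ c)
    (φ : R →+* k) (hφ : ∀ r : R0, φ (algebraMap R0 R r) = algebraMap R0 k r)
    (δ : MvPolynomial (Fin M) (MvPolynomial (Fin (D + 1)) R0)) (T0 : Fin M → MvPowerSeries (Fin (D + 1)) k)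
    (hs : MvPowerSeries.coeff (Finsupp.single 0 s) (ev (bs (D + 1) R0 k) T0 δ) ≠ 0)
    (w0 : Fin s → MvPowerSeries (Fin D) k) (r0 : Fin M × Fin (2 * s + c) → MvPowerSeries (Fin D) k)
    (hw0 : ∀ l, MvPowerSeries.constantCoeff (w0 l) = 0)
    (hr0 : ∀ j, ((X ^ c * Wp w0 ^ 2 : (MvPowerSeries (Fin D) k)[X]) : PowerSeries (MvPowerSeries (Fin D) k)) ∣
        Ph D k (T0 j) - ((Tp r0 j : (MvPowerSeries (Fin D) k)[X]) : PowerSeries (MvPowerSeries (Fin D) k)))
    (w1 : Fin s → MvPowerSeries (Fin D) R) (r1 : Fin M × Fin (2 * s + c) → MvPowerSeries (Fin D) R)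
    (hcw : ∀ l, φ (MvPowerSeries.constantCoeff (w1 l)) = 0)
    (hcr : ∀ p, φ (MvPowerSeries.constantCoeff (r1 p)) = MvPowerSeries.constantCoeff (r0 p))
    (B : (MvPowerSeries (Fin D) R)[X]) (hB : ev (bq D (bs D R0 R)) (Tp r1) δ = Wp w1 * B) :
    φ (MvPowerSeries.constantCoeff (B.coeff 0)) ≠ 0 := by
  have h1 : rd D φ (ev (bq D (bs D R0 R)) (Tp r1) δ) =
      rd D (RingHom.id k) (ev (bq D (bs D R0 k)) (Tp r0) δ) := by
    rw [ev_comp', ev_comp']
    have e1 : (rd D φ).comp (bq D (bs D R0 R)) = (rd D (RingHom.id k)).comp (bq D (bs D R0 k)) :=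
      RingHom.ext (rd_bq D R0 φ hφ)
    have e2 : (fun i => rd D φ (Tp r1 i)) = fun i => rd D (RingHom.id k) (Tp r0 i) := by
      funext j
      rw [rd_Tp, rd_Tp]
      simp [hcr]
    rw [e1, e2]
  rw [hB, map_mul, rd_Wp D φ w1 hcw] at h1
  have h2 := congrArg (fun p : Polynomial k => p.coeff s) h1
  simp only [Polynomial.coeff_X_pow_mul', le_refl, if_true, Nat.sub_self] at h2
  have h3 : (rd D φ B).coeff 0 = φ (MvPowerSeries.constantCoeff (B.coeff 0)) := by
    simp [rd]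
  rw [← h3, h2]
  obtain ⟨e, he⟩ := hA' (R0 := R0) D _ T0 r0 hr0 δ
  have h4 := congrArg (fun f => MvPowerSeries.constantCoeff (PowerSeries.coeff s f)) he
  simp only [map_sub, cc_coeff_Ph, Polynomial.coeff_coe] at h4
  have h7 : Polynomial.map (MvPowerSeries.constantCoeff (σ := Fin D) (R := k)) (Wp w0) = X ^ s := by
    have := rd_Wp D (RingHom.id k) w0 hw0
    simpa [rd] using this
  have h6 : PowerSeries.map (MvPowerSeries.constantCoeff (σ := Fin D) (R := k))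
      ((X ^ c * Wp w0 ^ 2 : (MvPowerSeries (Fin D) k)[X]) : PowerSeries (MvPowerSeries (Fin D) k)) = PowerSeries.X ^ (2 * s + c) := by
    rw [← Polynomial.polynomial_map_coe, Polynomial.map_mul, Polynomial.map_pow, Polynomial.map_pow, h7, Polynomial.map_X,
      ← pow_mul, ← pow_add, Polynomial.coe_pow, Polynomial.coe_X]
    congr 1
    ring
  have h5 : MvPowerSeries.constantCoeff (PowerSeries.coeff s
      (((X ^ c * Wp w0 ^ 2 : (MvPowerSeries (Fin D) k)[X]) : PowerSeries (MvPowerSeries (Fin D) k)) * e)) = 0 := by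
    rw [← PowerSeries.coeff_map, map_mul, h6, PowerSeries.coeff_X_pow_mul', if_neg (by omega)]
  rw [h5, sub_eq_zero] at h4
  have h8 : (rd D (RingHom.id k) (ev (bq D (bs D R0 k)) (Tp r0) δ)).coeff s =
      MvPowerSeries.constantCoeff ((ev (bq D (bs D R0 k)) (Tp r0) δ).coeff s) := by
    simp [rd]
  rw [h8, ← h4]
  exact hs

open Polynomial in
/-- approximation of `T0` by the pulled back remainders -/
theorem wstep_c (D : ℕ) {k R : Type} [Field k] [CommRing R] {M s c : ℕ} (φ : R →+* k) (T0 : Fin M → MvPowerSeries (Fin (D + 1)) k)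
    (w0 : Fin s → MvPowerSeries (Fin D) k) (r0 : Fin M × Fin (2 * s + c) → MvPowerSeries (Fin D) k)
    (hr0 : ∀ j, ((X ^ c * Wp w0 ^ 2 : (MvPowerSeries (Fin D) k)[X]) : PowerSeries (MvPowerSeries (Fin D) k)) ∣
        Ph D k (T0 j) - ((Tp r0 j : (MvPowerSeries (Fin D) k)[X]) : PowerSeries (MvPowerSeries (Fin D) k)))
    (r1 : Fin M × Fin (2 * s + c) → MvPowerSeries (Fin D) R)
    (hr1 : ∀ p, MvPowerSeries.map φ (r1 p) - r0 p ∈ mI D k ^ c) (j : Fin M) :
    MvPowerSeries.map φ ((Ph D R).symm ((Tp r1 j : (MvPowerSeries (Fin D) R)[X]) : PowerSeries (MvPowerSeries (Fin D) R))) - T0 j ∈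
      mI (D + 1) k ^ c := by
  have h1 : (Ph D k).symm ((X ^ c * Wp w0 ^ 2 : (MvPowerSeries (Fin D) k)[X]) : PowerSeries (MvPowerSeries (Fin D) k)) ∈
      mI (D + 1) k ^ c := by
    rw [Polynomial.coe_mul, map_mul, Polynomial.coe_pow, map_pow, Polynomial.coe_X, Ph_symm_X]
    refine Ideal.mul_mem_right _ _ (Ideal.pow_mem_pow ?_ c)
    exact Ideal.subset_span ⟨0, rfl⟩
  have h2 : T0 j - (Ph D k).symm ((Tp r0 j : (MvPowerSeries (Fin D) k)[X]) : PowerSeries (MvPowerSeries (Fin D) k)) ∈ mI (D + 1) k ^ c := by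
    have := hdiff' D _ T0 r0 hr0 j
    exact (Ideal.span_singleton_le_iff_mem _).mpr h1 this
  have h3 : MvPowerSeries.map φ ((Ph D R).symm ((Tp r1 j : (MvPowerSeries (Fin D) R)[X]) : PowerSeries (MvPowerSeries (Fin D) R))) -
      (Ph D k).symm ((Tp r0 j : (MvPowerSeries (Fin D) k)[X]) : PowerSeries (MvPowerSeries (Fin D) k)) =
      ∑ l : Fin (2 * s + c), (Ph D k).symm (PowerSeries.C (MvPowerSeries.map φ (r1 (j, l)) - r0 (j, l))) * MvPowerSeries.X 0 ^ (l : ℕ) := by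
    apply (Ph D k).injective
    rw [map_sub, Ph_map, AlgEquiv.apply_symm_apply, AlgEquiv.apply_symm_apply, map_sum]
    simp only [map_mul, map_pow, AlgEquiv.apply_symm_apply]
    have e0 : ∀ (R' : Type) [CommRing R'] (r : Fin M × Fin (2 * s + c) → MvPowerSeries (Fin D) R'),
        ((Tp r j : (MvPowerSeries (Fin D) R')[X]) : PowerSeries (MvPowerSeries (Fin D) R')) =
          ∑ l : Fin (2 * s + c), PowerSeries.C (r (j, l)) * PowerSeries.X ^ (l : ℕ) := by
      intro R' _ r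
      rw [← Polynomial.coeToPowerSeries.ringHom_apply, Tp, map_sum]
      refine Finset.sum_congr rfl fun l _ => ?_
      rw [map_mul, map_pow]
      simp
    rw [e0, e0, map_sum, ← Finset.sum_sub_distrib]
    refine Finset.sum_congr rfl fun l _ => ?_
    have e1 : Ph D k (MvPowerSeries.X 0) = PowerSeries.X := by simp [Ph]
    rw [e1, map_mul, map_pow, PowerSeries.map_X, PowerSeries.map_C, map_sub, sub_mul]
  have h4 : MvPowerSeries.map φ ((Ph D R).symm ((Tp r1 j : (MvPowerSeries (Fin D) R)[X]) : PowerSeries (MvPowerSeries (Fin D) R))) -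
      (Ph D k).symm ((Tp r0 j : (MvPowerSeries (Fin D) k)[X]) : PowerSeries (MvPowerSeries (Fin D) k)) ∈ mI (D + 1) k ^ c := by
    rw [h3]
    exact Ideal.sum_mem _ fun l _ => Ideal.mul_mem_right _ _ (Ph_symm_C_mem D k c _ (hr1 _))
  have h5 := Ideal.sub_mem _ h4 h2
  rwa [sub_sub_sub_cancel_right] at h5

open Polynomial in
theorem wstep_proved (D : ℕ) (IH : TransferAt D) {k R0 : Type} [Field k] [CharZero k] [CommRing R0] [Algebra R0 k] {M : ℕ}
    (Q : Finset (MvPolynomial (Fin M) (MvPolynomial (Fin (D + 1)) R0)))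
    (δ : MvPolynomial (Fin M) (MvPolynomial (Fin (D + 1)) R0)) (T0 : Fin M → MvPowerSeries (Fin (D + 1)) k)
    (hQ : ∀ q ∈ Q, ev (bs (D + 1) R0 k) T0 q = 0) (hδ : Reg D (ev (bs (D + 1) R0 k) T0 δ)) (c : ℕ) (hc : 1 ≤ c) :
    ∃ Lam : Subalgebra R0 k, Lam.FG ∧ ∃ T1 : Fin M → MvPowerSeries (Fin (D + 1)) Lam,
      (∀ q ∈ Q, ev (bs (D + 1) R0 Lam) T1 q ∈
        Ideal.span {ev (bs (D + 1) R0 Lam) T1 δ ^ 2} * Ideal.span {(MvPowerSeries.X 0 : MvPowerSeries (Fin (D + 1)) Lam) ^ c}) ∧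
      ∀ j, MvPowerSeries.map (algebraMap Lam k) (T1 j) - T0 j ∈ mI (D + 1) k ^ c := by
  classical
  have hs : MvPowerSeries.coeff (Finsupp.single 0 (Nat.find hδ)) (ev (bs (D + 1) R0 k) T0 δ) ≠ 0 := Nat.find_spec hδ
  have hmin : ∀ i < Nat.find hδ, MvPowerSeries.coeff (Finsupp.single 0 i) (ev (bs (D + 1) R0 k) T0 δ) = 0 := fun i hi => by
    by_contra h
    exact Nat.find_min hδ hi h
  generalize Nat.find hδ = s at hs hmin
  obtain ⟨w0, r0, hw0, hr0, hQd, hδd⟩ := wstep_a D Q δ T0 hQ s hs hmin c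
  obtain ⟨F, hF⟩ := usys D M s (2 * s + c) c Q δ
  have hF0 := (hF (MvPowerSeries (Fin D) k) (bs D R0 k) (Sum.elim w0 r0)).mpr ⟨fun q hq => hQd q hq, hδd⟩
  obtain ⟨Lam, hLam, T, hT, hTc⟩ := IH k R0 (Fin s ⊕ (Fin M × Fin (2 * s + c))) F (Sum.elim w0 r0) hF0 c
  obtain ⟨hQ1, B, hB⟩ := (hF (MvPowerSeries (Fin D) Lam) (bs D R0 Lam) T).mp hT
  have hc1 : ∀ l, MvPowerSeries.map (algebraMap Lam k) (T (Sum.inl l)) - w0 l ∈ mI D k ^ c := fun l => hTc (Sum.inl l)
  have hc2 : ∀ p, MvPowerSeries.map (algebraMap Lam k) (T (Sum.inr p)) - r0 p ∈ mI D k ^ c := fun p => hTc (Sum.inr p)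
  generalize hw1 : (fun l => T (Sum.inl l)) = w1 at hB hQ1
  generalize hr1 : (fun p => T (Sum.inr p)) = r1 at hB hQ1
  have hc1' : ∀ l, MvPowerSeries.map (algebraMap Lam k) (w1 l) - w0 l ∈ mI D k ^ c := by rw [← hw1]; exact hc1
  have hc2' : ∀ p, MvPowerSeries.map (algebraMap Lam k) (r1 p) - r0 p ∈ mI D k ^ c := by rw [← hr1]; exact hc2
  have hφ : ∀ r : R0, algebraMap Lam k (algebraMap R0 Lam r) = algebraMap R0 k r := fun r => rfl
  have hb0 : algebraMap Lam k (MvPowerSeries.constantCoeff (B.coeff 0)) ≠ 0 := by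
    refine wstep_b D hc (algebraMap Lam k) hφ δ T0 hs w0 r0 hw0 hr0 w1 r1 ?_ ?_ B hB
    · intro l
      have h1 := cc_mI D c hc _ (hc1' l)
      rwa [map_sub, MvPowerSeries.constantCoeff_map, hw0 l, sub_zero] at h1
    · intro p
      have h1 := cc_mI D c hc _ (hc2' p)
      rwa [map_sub, MvPowerSeries.constantCoeff_map, sub_eq_zero] at h1
  -- the enlarged subalgebra
  generalize hb : MvPowerSeries.constantCoeff (B.coeff 0) = b0 at hb0
  obtain ⟨Lam2, hL2, hle, hinv⟩ : ∃ Lam2 : Subalgebra R0 k, Lam2.FG ∧ Lam ≤ Lam2 ∧ ((b0 : k))⁻¹ ∈ Lam2 := by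
    refine ⟨Lam ⊔ Algebra.adjoin R0 (({((b0 : k))⁻¹} : Finset k) : Set k), hLam.sup (Subalgebra.fg_adjoin_finset _), le_sup_left, ?_⟩
    exact le_sup_right (a := Lam) (Algebra.subset_adjoin (by simp))
  let ι : Lam →+* Lam2 := (Subalgebra.inclusion hle : Lam →ₐ[R0] Lam2)
  have hι : ∀ r : R0, ι (algebraMap R0 Lam r) = algebraMap R0 Lam2 r := fun r => rfl
  have hιk : ∀ x : Lam, algebraMap Lam2 k (ι x) = algebraMap Lam k x := fun x => rfl
  have hu : IsUnit (ι b0) := by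
    refine IsUnit.of_mul_eq_one (⟨((b0 : k))⁻¹, hinv⟩ : Lam2) ?_
    apply Subtype.ext
    exact mul_inv_cancel₀ hb0
  refine ⟨Lam2, hL2, fun j => MvPowerSeries.map ι ((Ph D Lam).symm ((Tp r1 j : (MvPowerSeries (Fin D) Lam)[X]) : PowerSeries (MvPowerSeries (Fin D) Lam))), ?_, ?_⟩
  · intro q hq
    have hδ1 : ev (bs (D + 1) R0 Lam) (fun j => (Ph D Lam).symm ((Tp r1 j : (MvPowerSeries (Fin D) Lam)[X]) : PowerSeries (MvPowerSeries (Fin D) Lam))) δ =
        (Ph D Lam).symm ((Wp w1 : (MvPowerSeries (Fin D) Lam)[X]) : PowerSeries (MvPowerSeries (Fin D) Lam)) *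
          (Ph D Lam).symm ((B : (MvPowerSeries (Fin D) Lam)[X]) : PowerSeries (MvPowerSeries (Fin D) Lam)) := by
      apply (Ph D Lam).injective
      rw [Ph_ev D R0 Lam (Tp r1) _ (fun j => (Ph D Lam).apply_symm_apply _) δ, hB, map_mul, AlgEquiv.apply_symm_apply,
        AlgEquiv.apply_symm_apply, Polynomial.coe_mul]
    obtain ⟨E, hE⟩ := hQ1 q hq
    have hq1 : ev (bs (D + 1) R0 Lam) (fun j => (Ph D Lam).symm ((Tp r1 j : (MvPowerSeries (Fin D) Lam)[X]) : PowerSeries (MvPowerSeries (Fin D) Lam))) q =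
        MvPowerSeries.X 0 ^ c * (Ph D Lam).symm ((Wp w1 : (MvPowerSeries (Fin D) Lam)[X]) : PowerSeries (MvPowerSeries (Fin D) Lam)) ^ 2 *
          (Ph D Lam).symm ((E : (MvPowerSeries (Fin D) Lam)[X]) : PowerSeries (MvPowerSeries (Fin D) Lam)) := by
      apply (Ph D Lam).injective
      rw [Ph_ev D R0 Lam (Tp r1) _ (fun j => (Ph D Lam).apply_symm_apply _) q, hE, map_mul, map_mul, map_pow, map_pow,
        AlgEquiv.apply_symm_apply, AlgEquiv.apply_symm_apply, Polynomial.coe_mul, Polynomial.coe_mul, Polynomial.coe_pow,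
        Polynomial.coe_pow, Polynomial.coe_X]
      have e1 : Ph D Lam (MvPowerSeries.X 0) = PowerSeries.X := by simp [Ph]
      rw [e1]
    have hcB : MvPowerSeries.constantCoeff ((Ph D Lam).symm ((B : (MvPowerSeries (Fin D) Lam)[X]) : PowerSeries (MvPowerSeries (Fin D) Lam))) = b0 := by
      have := cc_coeff_Ph D Lam ((Ph D Lam).symm ((B : (MvPowerSeries (Fin D) Lam)[X]) : PowerSeries (MvPowerSeries (Fin D) Lam))) 0
      rw [AlgEquiv.apply_symm_apply, Polynomial.coeff_coe, hb, Finsupp.single_zero, MvPowerSeries.coeff_zero_eq_constantCoeff_apply] at this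
      exact this.symm
    have hm1 := map_ev (D + 1) R0 ι hι (fun j => (Ph D Lam).symm ((Tp r1 j : (MvPowerSeries (Fin D) Lam)[X]) : PowerSeries (MvPowerSeries (Fin D) Lam))) q
    have hm2 := map_ev (D + 1) R0 ι hι (fun j => (Ph D Lam).symm ((Tp r1 j : (MvPowerSeries (Fin D) Lam)[X]) : PowerSeries (MvPowerSeries (Fin D) Lam))) δ
    rw [← hm1, ← hm2, hq1, hδ1]
    simp only [map_mul, map_pow, MvPowerSeries.map_X]
    generalize hV : MvPowerSeries.map ι ((Ph D Lam).symm ((Wp w1 : (MvPowerSeries (Fin D) Lam)[X]) : PowerSeries (MvPowerSeries (Fin D) Lam))) = V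
    generalize hE2 : MvPowerSeries.map ι ((Ph D Lam).symm ((E : (MvPowerSeries (Fin D) Lam)[X]) : PowerSeries (MvPowerSeries (Fin D) Lam))) = E2
    have huB : IsUnit (MvPowerSeries.map ι ((Ph D Lam).symm ((B : (MvPowerSeries (Fin D) Lam)[X]) : PowerSeries (MvPowerSeries (Fin D) Lam)))) := by
      rw [MvPowerSeries.isUnit_iff_constantCoeff, MvPowerSeries.constantCoeff_map, hcB]
      exact hu
    obtain ⟨b2, hb2⟩ := huB
    rw [← hb2]
    have e3 : MvPowerSeries.X 0 ^ c * V ^ 2 * E2 = (V * (b2 : MvPowerSeries (Fin (D + 1)) Lam2)) ^ 2 *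
        (MvPowerSeries.X 0 ^ c * (((b2⁻¹ : (MvPowerSeries (Fin (D + 1)) Lam2)ˣ) : MvPowerSeries (Fin (D + 1)) Lam2) ^ 2 * E2)) := by
      have e4 : (b2 : MvPowerSeries (Fin (D + 1)) Lam2) * ((b2⁻¹ : (MvPowerSeries (Fin (D + 1)) Lam2)ˣ) : MvPowerSeries (Fin (D + 1)) Lam2) = 1 := b2.mul_inv
      calc MvPowerSeries.X 0 ^ c * V ^ 2 * E2 = MvPowerSeries.X 0 ^ c * V ^ 2 * E2 *
            ((b2 : MvPowerSeries (Fin (D + 1)) Lam2) * ((b2⁻¹ : (MvPowerSeries (Fin (D + 1)) Lam2)ˣ) : MvPowerSeries (Fin (D + 1)) Lam2)) ^ 2 := by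
              rw [e4, one_pow, mul_one]
        _ = _ := by ring
    rw [e3]
    exact Ideal.mul_mem_mul (Ideal.subset_span rfl) (Ideal.mul_mem_right _ _ (Ideal.subset_span rfl))
  · intro j
    have h1 := wstep_c D (algebraMap Lam k) T0 w0 r0 hr0 r1 hc2' j
    have h2 : MvPowerSeries.map (algebraMap Lam2 k) (MvPowerSeries.map ι ((Ph D Lam).symm ((Tp r1 j : (MvPowerSeries (Fin D) Lam)[X]) : PowerSeries (MvPowerSeries (Fin D) Lam)))) =
        MvPowerSeries.map (algebraMap Lam k) ((Ph D Lam).symm ((Tp r1 j : (MvPowerSeries (Fin D) Lam)[X]) : PowerSeries (MvPowerSeries (Fin D) Lam))) := by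
      ext x
      rw [MvPowerSeries.coeff_map, MvPowerSeries.coeff_map, MvPowerSeries.coeff_map, hιk]
    rw [h2]
    exact h1

end Vale.Agent.P202T
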