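import Vale.Agent.P202T.Defs

/-! # P202, transfer theorem: TR, regularity after a linear change of variables (helper53) -/

namespace Vale.Agent.P202T

open Finset

section TR

variable {D : ℕ} {k : Type} [Field k]

/-- restriction to the axis `y_0` -/
noncomputable def trax (D : ℕ) (k : Type) [Field k] :
    MvPowerSeries (Fin (D + 1)) k →+* PowerSeries k where
  toFun g := PowerSeries.mk fun s => MvPowerSeries.coeff (Finsupp.single 0 s) g
  map_one' := by
    classical
    ext s
    rw [PowerSeries.coeff_mk, MvPowerSeries.coeff_one, PowerSeries.coeff_one]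
    simp only [Finsupp.single_eq_zero]
  map_zero' := by
    ext s
    simp
  map_add' f g := by
    ext s
    simp
  map_mul' f g := by
    classical
    ext s
    rw [PowerSeries.coeff_mk, PowerSeries.coeff_mul, MvPowerSeries.coeff_mul,
      Finsupp.antidiagonal_single, Finset.sum_map]
    refine sum_congr rfl fun p _ => ?_
    simp

theorem trax_coeff (g : MvPowerSeries (Fin (D + 1)) k) (s : ℕ) :
    PowerSeries.coeff s (trax D k g) = MvPowerSeries.coeff (Finsupp.single 0 s) g := by
  change PowerSeries.coeff s (PowerSeries.mk fun s => MvPowerSeries.coeff (Finsupp.single 0 s) g) = _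
  rw [PowerSeries.coeff_mk]

theorem trax_X0 : trax D k (MvPowerSeries.X 0) = PowerSeries.X := by
  classical
  ext s
  rw [trax_coeff, MvPowerSeries.coeff_X, PowerSeries.coeff_X]
  have h : (Finsupp.single (0 : Fin (D + 1)) s = Finsupp.single 0 1) ↔ s = 1 :=
    (Finsupp.single_injective (0 : Fin (D + 1))).eq_iff
  simp only [h]

theorem trax_Xs (i : Fin D) : trax D k (MvPowerSeries.X i.succ) = 0 := by
  classical
  ext s
  rw [trax_coeff, MvPowerSeries.coeff_X, map_zero, if_neg]
  intro h
  have h1 := DFunLike.congr_fun h i.succ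
  rw [Finsupp.single_eq_same, Finsupp.single_eq_of_ne (Fin.succ_ne_zero i)] at h1
  exact zero_ne_one h1

theorem trax_shv (lam : Fin D → ℤ) (i : Fin (D + 1)) :
    trax D k (shv D lam k i) =
      PowerSeries.C ((Fin.cons 1 (fun i => (lam i : k)) : Fin (D + 1) → k) i) * PowerSeries.X := by
  refine Fin.cases ?_ (fun i => ?_) i
  · simp only [shv, Fin.cons_zero, map_one, one_mul]
    exact trax_X0
  · simp only [shv, Fin.cons_succ]
    rw [map_add, map_mul, trax_X0, trax_Xs, zero_add, map_intCast, map_intCast]

theorem trax_prod (lam : Fin D → ℤ) (d : Fin (D + 1) →₀ ℕ) :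
    trax D k (d.prod fun s e => shv D lam k s ^ e) =
      PowerSeries.C (∏ i, ((Fin.cons 1 (fun i => (lam i : k)) : Fin (D + 1) → k) i) ^ d i)
        * PowerSeries.X ^ (∑ i, d i) := by
  rw [Finsupp.prod_fintype _ _ (fun i => pow_zero _), map_prod, map_prod, ← prod_pow_eq_pow_sum,
    ← prod_mul_distrib]
  refine prod_congr rfl fun i _ => ?_
  rw [map_pow, trax_shv, mul_pow, map_pow]

/-- the coefficient of `y_0^s` after the change of variables -/
theorem tr_coeff_sh (lam : Fin D → ℤ) (f : MvPowerSeries (Fin (D + 1)) k) (s : ℕ) :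
    MvPowerSeries.coeff (Finsupp.single 0 s) (sh D lam k f) =
      ∑ d ∈ (univ : Finset (Fin (D + 1))).finsuppAntidiag s,
        MvPowerSeries.coeff d f *
          ∏ i, ((Fin.cons 1 (fun i => (lam i : k)) : Fin (D + 1) → k) i) ^ d i := by
  classical
  rw [sh, MvPowerSeries.substAlgHom_apply, MvPowerSeries.coeff_subst (shv_hasSubst D lam k)]
  have h1 : ∀ d : Fin (D + 1) →₀ ℕ,
      MvPowerSeries.coeff (Finsupp.single 0 s) (d.prod fun s e => shv D lam k s ^ e) =
        if s = ∑ i, d i then
          ∏ i, ((Fin.cons 1 (fun i => (lam i : k)) : Fin (D + 1) → k) i) ^ d i else 0 := by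
    intro d
    rw [← trax_coeff, trax_prod, PowerSeries.coeff_C_mul, PowerSeries.coeff_X_pow, mul_ite, mul_one,
      mul_zero]
  rw [finsum_eq_sum_of_support_subset (s := (univ : Finset (Fin (D + 1))).finsuppAntidiag s)]
  · refine sum_congr rfl fun d hd => ?_
    rw [mem_finsuppAntidiag] at hd
    rw [h1, if_pos hd.1.symm, smul_eq_mul]
  · intro d hd
    rw [Function.mem_support, h1] at hd
    rw [mem_coe, mem_finsuppAntidiag]
    refine ⟨?_, subset_univ _⟩
    by_contra hne
    apply hd
    rw [if_neg (fun h => hne h.symm), smul_zero]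

theorem exists_reg_proved (D : ℕ) {k : Type} [Field k] [CharZero k]
    (f : MvPowerSeries (Fin (D + 1)) k) (hf : f ≠ 0) :
    ∃ lam : Fin D → ℤ, Reg D (sh D lam k f) := by
  classical
  obtain ⟨d₀, hd₀⟩ : ∃ d₀, MvPowerSeries.coeff d₀ f ≠ 0 := by
    by_contra h
    push Not at h
    exact hf (MvPowerSeries.ext fun n => by rw [h n, map_zero])
  set s : ℕ := ∑ i, d₀ i with hs
  set p : MvPolynomial (Fin D) k := ∑ d ∈ (univ : Finset (Fin (D + 1))).finsuppAntidiag s,
    MvPolynomial.monomial (Finsupp.tail d) (MvPowerSeries.coeff d f) with hp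
  have hmem : d₀ ∈ (univ : Finset (Fin (D + 1))).finsuppAntidiag s := by
    rw [mem_finsuppAntidiag]
    exact ⟨rfl, subset_univ _⟩
  have hp0 : p ≠ 0 := by
    intro h0
    have h1 : MvPolynomial.coeff (Finsupp.tail d₀) p = MvPowerSeries.coeff d₀ f := by
      rw [hp, MvPolynomial.coeff_sum, sum_eq_single d₀]
      · rw [MvPolynomial.coeff_monomial, if_pos rfl]
      · intro d hd hne
        rw [MvPolynomial.coeff_monomial, if_neg]
        intro htail
        apply hne
        rw [mem_finsuppAntidiag] at hd
        have h2 : ∀ i : Fin D, d i.succ = d₀ i.succ := fun i => DFunLike.congr_fun htail i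
        have h3 : ∑ i, d i = ∑ i, d₀ i := hd.1
        rw [Fin.sum_univ_succ, Fin.sum_univ_succ, sum_congr rfl fun i _ => h2 i] at h3
        ext i
        refine Fin.cases ?_ (fun i => h2 i) i
        omega
      · intro h
        exact absurd hmem h
    rw [h0, MvPolynomial.coeff_zero] at h1
    exact hd₀ h1.symm
  have hex : ∃ lam : Fin D → ℤ, MvPolynomial.eval (fun i => (lam i : k)) p ≠ 0 := by
    by_contra h
    push Not at h
    apply hp0
    refine MvPolynomial.funext_set (fun _ => Set.range (Int.cast : ℤ → k))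
      (fun _ => Set.infinite_range_of_injective Int.cast_injective) (fun x hx => ?_)
    rw [map_zero]
    choose lam hlam using fun i => hx i (Set.mem_univ i)
    have h2 := h lam
    rwa [show (fun i => (lam i : k)) = x from funext hlam] at h2
  obtain ⟨lam, hlam⟩ := hex
  refine ⟨lam, s, ?_⟩
  rw [tr_coeff_sh]
  intro h0
  apply hlam
  rw [hp, map_sum, ← h0]
  refine sum_congr rfl fun d _ => ?_
  rw [MvPolynomial.eval_monomial, Finsupp.prod_fintype _ _ (fun i => pow_zero _),
    Fin.prod_univ_succ]
  simp only [Fin.cons_zero, one_pow, one_mul, Fin.cons_succ]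
  rfl

end TR

end Vale.Agent.P202T
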