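import Vale.Agent.P202T.Defs

/-! # P202, transfer theorem, module TZ: the case of no variables (helper18) -/

namespace Vale.Agent.P202T

theorem tz_map_bs (D : ℕ) (R0 R S : Type) [CommRing R0] [CommRing R] [CommRing S] [Algebra R0 R]
    [Algebra R0 S] (φ : R →ₐ[R0] S) :
    (MvPowerSeries.map (σ := Fin D) (φ : R →+* S)).comp (bs D R0 R) = bs D R0 S := by
  refine MvPolynomial.ringHom_ext (fun r => ?_) (fun i => ?_)
  · have h1 : bs D R0 R (MvPolynomial.C r) = MvPowerSeries.C (algebraMap R0 R r) := by
      unfold bs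
      simp [MvPowerSeries.algebraMap_apply]
    have h2 : bs D R0 S (MvPolynomial.C r) = MvPowerSeries.C (algebraMap R0 S r) := by
      unfold bs
      simp [MvPowerSeries.algebraMap_apply]
    rw [RingHom.comp_apply, h1, h2, MvPowerSeries.map_C]
    congr 1
    exact φ.commutes r
  · have h1 : bs D R0 R (MvPolynomial.X i) = MvPowerSeries.X i := by
      unfold bs
      simp
    have h2 : bs D R0 S (MvPolynomial.X i) = MvPowerSeries.X i := by
      unfold bs
      simp
    rw [RingHom.comp_apply, h1, h2, MvPowerSeries.map_X]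

theorem tz_map_inj (D : ℕ) {R S : Type} [CommRing R] [CommRing S] (φ : R →+* S)
    (hφ : Function.Injective φ) : Function.Injective (MvPowerSeries.map (σ := Fin D) φ) := by
  intro f g h
  ext n
  apply hφ
  have h1 := congrArg (MvPowerSeries.coeff n) h
  rwa [MvPowerSeries.coeff_map, MvPowerSeries.coeff_map] at h1

theorem transfer_zero_proved : TransferAt 0 := by
  intro k R0 ι _ _ _ _ _ F T0 h0 c
  classical
  cases nonempty_fintype ι
  set Lam : Subalgebra R0 k :=
    Algebra.adjoin R0 (((Finset.univ.image fun i => MvPowerSeries.constantCoeff (T0 i)) :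
      Finset k) : Set k) with hLam
  have hmem : ∀ i, MvPowerSeries.constantCoeff (T0 i) ∈ Lam := fun i => by
    refine Algebra.subset_adjoin ?_
    simp
  refine ⟨Lam, ⟨_, rfl⟩, fun i => MvPowerSeries.C ⟨_, hmem i⟩, ?_, ?_⟩
  · have hT : ∀ i, MvPowerSeries.map (σ := Fin 0) ((Lam.val : Lam →ₐ[R0] k) : Lam →+* k)
        (MvPowerSeries.C ⟨_, hmem i⟩) = T0 i := by
      intro i
      rw [MvPowerSeries.map_C]
      ext n
      have hn : n = 0 := Subsingleton.elim _ _
      subst hn
      simp
    intro f hf
    apply tz_map_inj 0 ((Lam.val : Lam →ₐ[R0] k) : Lam →+* k) Subtype.val_injective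
    rw [map_zero, ← h0 f hf]
    unfold ev
    rw [MvPolynomial.coe_eval₂Hom, MvPolynomial.coe_eval₂Hom, MvPolynomial.eval₂_comp_left,
      tz_map_bs]
    congr 1
    funext i
    exact hT i
  · intro i
    have hT : MvPowerSeries.map (σ := Fin 0) (algebraMap Lam k)
        (MvPowerSeries.C ⟨_, hmem i⟩) = T0 i := by
      rw [MvPowerSeries.map_C]
      ext n
      have hn : n = 0 := Subsingleton.elim _ _
      subst hn
      simp
    rw [hT, sub_self]
    exact Ideal.zero_mem _

end Vale.Agent.P202T
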