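import Vale.Agent.P202T.Defs
import Vale.Agent.P202T.TA
import Vale.Agent.P202T.TB
import Vale.Agent.P202T.TC
import Vale.Agent.P202T.TR
import Vale.Agent.P202T.TS
import Vale.Agent.P202T.TE
import Vale.Agent.P202T.TZ

/-! # P202, transfer theorem, module TF: assembly of the induction step (helper68) -/

namespace Vale.Agent.P202T

/-- evaluation and the linear change of variables -/
theorem tf_sh_ev (D : ℕ) (lam : Fin D → ℤ) (R0 R : Type) [CommRing R0] [CommRing R] [Algebra R0 R] {M : ℕ}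
    (T : Fin M → MvPowerSeries (Fin (D + 1)) R) (q : MvPolynomial (Fin M) (MvPolynomial (Fin (D + 1)) R0)) :
    sh D lam R (ev (bs (D + 1) R0 R) T q) =
      ev (bs (D + 1) R0 R) (fun j => sh D lam R (T j))
        (MvPolynomial.map ((shp D lam R0 : MvPolynomial (Fin (D + 1)) R0 →ₐ[R0] MvPolynomial (Fin (D + 1)) R0) :
          MvPolynomial (Fin (D + 1)) R0 →+* MvPolynomial (Fin (D + 1)) R0) q) := by
  have h : ((sh D lam R : MvPowerSeries (Fin (D + 1)) R →ₐ[R] MvPowerSeries (Fin (D + 1)) R) :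
        MvPowerSeries (Fin (D + 1)) R →+* MvPowerSeries (Fin (D + 1)) R).comp (ev (bs (D + 1) R0 R) T) =
      (ev (bs (D + 1) R0 R) (fun j => sh D lam R (T j))).comp
        (MvPolynomial.map ((shp D lam R0 : MvPolynomial (Fin (D + 1)) R0 →ₐ[R0] MvPolynomial (Fin (D + 1)) R0) :
          MvPolynomial (Fin (D + 1)) R0 →+* MvPolynomial (Fin (D + 1)) R0)) := by
    apply MvPolynomial.ringHom_ext
    · intro r
      simp only [RingHom.comp_apply, RingHom.coe_coe, MvPolynomial.map_C, ev, MvPolynomial.coe_eval₂Hom,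
        MvPolynomial.eval₂_C]
      exact sh_bs_proved D lam R0 R r
    · intro i
      simp [ev]
  exact congrArg (fun f : MvPolynomial (Fin M) (MvPolynomial (Fin (D + 1)) R0) →+* MvPowerSeries (Fin (D + 1)) R => f q) h

theorem tf_ev_rename {R1 C ι : Type} [CommRing R1] [CommRing C] {M : ℕ} (e : ι ≃ Fin M) (γ : R1 →+* C) (T : Fin M → C)
    (f : MvPolynomial ι R1) : ev γ T (MvPolynomial.rename e f) = ev γ (fun i => T (e i)) f := by
  unfold ev
  rw [MvPolynomial.coe_eval₂Hom, MvPolynomial.coe_eval₂Hom, MvPolynomial.eval₂_rename]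
  rfl

theorem tf_X_mem (D : ℕ) (R : Type) [CommRing R] :
    (MvPowerSeries.X 0 : MvPowerSeries (Fin (D + 1)) R) ∈ mI (D + 1) R :=
  Ideal.subset_span (Set.mem_range_self (0 : Fin (D + 1)))

theorem transfer_succ_proved (D : ℕ) (IH : TransferAt D) : TransferAt (D + 1) := by
  intro k R0 ι _ _ _ _ _ F T0 hF c
  classical
  obtain ⟨M, ⟨e⟩⟩ := Finite.exists_equiv_fin ι
  -- reindexing
  set F' : Finset (MvPolynomial (Fin M) (MvPolynomial (Fin (D + 1)) R0)) := F.image (MvPolynomial.rename e) with hF'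
  set T0' : Fin M → MvPowerSeries (Fin (D + 1)) k := fun j => T0 (e.symm j) with hT0'
  have hzero : ∀ f ∈ F', ev (bs (D + 1) R0 k) T0' f = 0 := by
    intro f hf
    rw [hF', Finset.mem_image] at hf
    obtain ⟨g, hg, rfl⟩ := hf
    rw [tf_ev_rename]
    have : (fun i => T0' (e i)) = T0 := by funext i; simp [hT0']
    rw [this]
    exact hF g hg
  have : CharZero (MvPowerSeries (Fin (D + 1)) k) :=
    charZero_of_injective_ringHom (f := (MvPowerSeries.C : k →+* MvPowerSeries (Fin (D + 1)) k))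
      MvPowerSeries.C_injective
  have : IsDomain (MvPowerSeries (Fin (D + 1)) k) := NoZeroDivisors.to_isDomain _
  obtain ⟨Q, δ, hQ, hδ, hlift⟩ := lift_exists_proved (bs (D + 1) R0 k) F' T0' hzero
  -- regularity
  obtain ⟨lam, hreg⟩ := exists_reg_proved D _ hδ
  obtain ⟨m, hm⟩ := exists_not_mem_proved (D + 1) _ hδ
  set c' : ℕ := max c (m + 1) with hc'
  have hc1 : 1 ≤ c' := le_trans (by omega) (le_max_right c (m + 1))
  set sp : MvPolynomial (Fin (D + 1)) R0 →+* MvPolynomial (Fin (D + 1)) R0 :=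
    ((shp D lam R0 : MvPolynomial (Fin (D + 1)) R0 →ₐ[R0] MvPolynomial (Fin (D + 1)) R0) :
          MvPolynomial (Fin (D + 1)) R0 →+* MvPolynomial (Fin (D + 1)) R0) with hsp
  obtain ⟨Lam, hLam, T1s, hT1s, hT1s'⟩ := wstep_proved D IH (k := k) (R0 := R0) (Q.image (MvPolynomial.map sp))
    (MvPolynomial.map sp δ) (fun j => sh D lam k (T0' j)) (by
      intro q hq
      rw [Finset.mem_image] at hq
      obtain ⟨g, hg, rfl⟩ := hq
      rw [← tf_sh_ev, hQ g hg, map_zero]) (by
      rw [← tf_sh_ev]; exact hreg) c' hc1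
  set γ := bs (D + 1) R0 Lam with hγ
  set φ : Lam →+* k := algebraMap Lam k with hφ
  have : IsDomain (MvPowerSeries (Fin (D + 1)) Lam) := NoZeroDivisors.to_isDomain _
  -- the point over Lam
  set T1 : Fin M → MvPowerSeries (Fin (D + 1)) Lam := fun j => sh D (-lam) Lam (T1s j) with hT1
  have hback : ∀ j, sh D lam Lam (T1 j) = T1s j := by
    intro j
    have := sh_sh_proved D (-lam) Lam (T1s j)
    rwa [neg_neg] at this
  have hev : ∀ q : MvPolynomial (Fin M) (MvPolynomial (Fin (D + 1)) R0),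
      ev γ T1 q = sh D (-lam) Lam (ev γ T1s (MvPolynomial.map sp q)) := by
    intro q
    have h1 := tf_sh_ev D lam R0 Lam T1 q
    have h2 : (fun j => sh D lam Lam (T1 j)) = T1s := funext hback
    rw [h2] at h1
    rw [← h1, sh_sh_proved]
  obtain ⟨T, hT, hTF⟩ := hlift (MvPowerSeries (Fin (D + 1)) Lam) γ (by
      intro r hr
      apply tz_map_inj (D + 1) φ Subtype.val_injective
      rw [map_zero, ← hr]
      have := tz_map_bs (D + 1) R0 Lam k Lam.val
      exact congrArg (fun f : MvPolynomial (Fin (D + 1)) R0 →+* MvPowerSeries (Fin (D + 1)) k => f r) this)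
    (mI (D + 1) Lam) (hp_mvps_proved (D + 1) Lam)
    (Ideal.span {(MvPowerSeries.X 0 : MvPowerSeries (Fin (D + 1)) Lam) ^ c'}) (by
      rw [Ideal.span_le, Set.singleton_subset_iff]
      exact Ideal.pow_mem_of_mem _ (tf_X_mem D Lam) _ (by omega)) T1 (by
      intro q hq
      have h1 := hT1s (MvPolynomial.map sp q) (Finset.mem_image_of_mem _ hq)
      rw [Ideal.span_singleton_mul_span_singleton, Ideal.mem_span_singleton] at h1 ⊢
      obtain ⟨g, hg⟩ := h1
      refine ⟨sh D (-lam) Lam g, ?_⟩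
      rw [hev q, hg, map_mul, map_mul, map_pow, map_pow, sh_X0_proved, ← hev δ])
  -- closeness
  have hclose1 : ∀ j, MvPowerSeries.map φ (T1 j) - T0' j ∈ mI (D + 1) k ^ c' := by
    intro j
    have h1 := sh_mI_proved D (-lam) k c' _ (hT1s' j)
    rw [map_sub, sh_sh_proved, ← sh_map_proved] at h1
    exact h1
  have hclose2 : ∀ j, MvPowerSeries.map φ (T j) - MvPowerSeries.map φ (T1 j) ∈ mI (D + 1) k ^ c' := by
    intro j
    have h1 := hT j
    rw [Ideal.mem_span_singleton] at h1
    obtain ⟨g, hg⟩ := h1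
    rw [← map_sub, hg, map_mul, map_pow, MvPowerSeries.map_X]
    exact Ideal.mul_mem_right _ _ (Ideal.pow_mem_pow (tf_X_mem D k) _)
  have hclose : ∀ j, MvPowerSeries.map φ (T j) - T0' j ∈ mI (D + 1) k ^ c' := by
    intro j
    have := Ideal.add_mem _ (hclose2 j) (hclose1 j)
    rwa [sub_add_sub_cancel] at this
  have hmapev : MvPowerSeries.map φ (ev γ T δ) = ev (bs (D + 1) R0 k) (fun j => MvPowerSeries.map φ (T j)) δ := by
    rw [ev_comp']
    have := tz_map_bs (D + 1) R0 Lam k Lam.val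
    rw [show (MvPowerSeries.map φ).comp γ = bs (D + 1) R0 k from this]
  have hne : ev γ T δ ≠ 0 := by
    intro h0
    rw [h0, map_zero] at hmapev
    have h1 := ev_congr' (bs (D + 1) R0 k) (fun j => MvPowerSeries.map φ (T j)) T0' (mI (D + 1) k ^ c') hclose δ
    rw [← hmapev, zero_sub, neg_mem_iff] at h1
    exact hm (Ideal.pow_le_pow_right (le_trans (Nat.le_succ m) (le_max_right c (m + 1))) h1)
  refine ⟨Lam, hLam, fun i => T (e i), ?_, ?_⟩
  · intro f hf
    rw [← tf_ev_rename]
    exact hTF hne _ (Finset.mem_image_of_mem _ hf)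
  · intro i
    have h1 := hclose (e i)
    have h2 : T0' (e i) = T0 i := by simp [hT0']
    rw [h2] at h1
    exact Ideal.pow_le_pow_right (le_max_left c (m + 1)) h1

end Vale.Agent.P202T
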