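import Vale.Agent.P202T.Defs
import Vale.Agent.P202T.TA
import Vale.Agent.P202T.TB
import Vale.Agent.P202T.TC
import Vale.Agent.P202T.TR
import Vale.Agent.P202T.TU
import Vale.Agent.P202T.TW
import Vale.Agent.P202T.TS
import Vale.Agent.P202T.TE
import Vale.Agent.P202T.TZ
import Vale.Agent.P202T.TF

/-! # P202, transfer theorem: statements of the modules (helper85)

Plan: notes/P202_transfer.md.  TA = `hp_mvps`, TB = `lift_exists`, TC = `sh` lemmas, TR = `exists_reg`,
TW = `wdata`, TU = `usys`, TE = `wstep`, TF = assembly `transfer`. -/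

namespace Vale.Agent.P202T

/-- TA: Newton's lemma in `R[[y]]`.  Mathlib: `IsAdicComplete (span (range X)) (MvPowerSeries σ R)` is an instance,
`IsAdicComplete.henselianRing` gives monic Hensel; non monic: `G(x + G'(x) v) = G'(x)² (e + v + v² q(v))`, `G(x) = G'(x)² e`, `e ∈ J`;
solve `e + v + v² q(v) = 0`, `v ∈ (e)`: put `v = -e w`, `w = 1/z`, which is a monic equation `z^n - z^(n-1) + ∑ c_i z^(n-i) = 0`, `c_i ∈ (e)`,
or do the Newton iteration directly by completeness. -/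
theorem hp_mvps (D : ℕ) (R : Type) [CommRing R] : HP (MvPowerSeries (Fin D) R) (mI D R) :=
  hp_mvps_proved D R

/-- TB: triangular systems.  Induction on `M` (`MvPolynomial.finSuccEquiv`, variable `0` is the last one to be determined).
See notes/P202_transfer.md. -/
theorem lift_exists {R1 P : Type} [CommRing R1] [CommRing P] [IsDomain P] [CharZero P] (β : R1 →+* P) {M : ℕ}
    (F : Finset (MvPolynomial (Fin M) R1)) (T0 : Fin M → P) (h0 : ∀ f ∈ F, ev β T0 f = 0) :
    ∃ (Q : Finset (MvPolynomial (Fin M) R1)) (δ : MvPolynomial (Fin M) R1),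
      (∀ q ∈ Q, ev β T0 q = 0) ∧ ev β T0 δ ≠ 0 ∧
      ∀ (C : Type) [CommRing C] [IsDomain C] (γ : R1 →+* C), (∀ r, β r = 0 → γ r = 0) →
        ∀ (I : Ideal C), HP C I → ∀ (J : Ideal C), J ≤ I → ∀ (T1 : Fin M → C),
        (∀ q ∈ Q, ev γ T1 q ∈ Ideal.span {ev γ T1 δ ^ 2} * J) →
        ∃ T : Fin M → C, (∀ j, T j - T1 j ∈ J) ∧ (ev γ T δ ≠ 0 → ∀ f ∈ F, ev γ T f = 0) :=
  lift_exists_proved β F T0 h0

/-- TC: properties of the linear change of variables -/
theorem sh_bs (D : ℕ) (lam : Fin D → ℤ) (R0 R : Type) [CommRing R0] [CommRing R] [Algebra R0 R]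
    (g : MvPolynomial (Fin (D + 1)) R0) : sh D lam R (bs (D + 1) R0 R g) = bs (D + 1) R0 R (shp D lam R0 g) :=
  sh_bs_proved D lam R0 R g

theorem sh_map (D : ℕ) (lam : Fin D → ℤ) {R S : Type} [CommRing R] [CommRing S] (φ : R →+* S)
    (f : MvPowerSeries (Fin (D + 1)) R) : MvPowerSeries.map φ (sh D lam R f) = sh D lam S (MvPowerSeries.map φ f) :=
  sh_map_proved D lam φ f

theorem sh_sh (D : ℕ) (lam : Fin D → ℤ) (R : Type) [CommRing R] (f : MvPowerSeries (Fin (D + 1)) R) :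
    sh D (-lam) R (sh D lam R f) = f :=
  sh_sh_proved D lam R f

theorem sh_X0 (D : ℕ) (lam : Fin D → ℤ) (R : Type) [CommRing R] : sh D lam R (MvPowerSeries.X 0) = MvPowerSeries.X 0 :=
  sh_X0_proved D lam R

theorem sh_mI (D : ℕ) (lam : Fin D → ℤ) (R : Type) [CommRing R] (c : ℕ) (f : MvPowerSeries (Fin (D + 1)) R)
    (hf : f ∈ mI (D + 1) R ^ c) : sh D lam R f ∈ mI (D + 1) R ^ c :=
  sh_mI_proved D lam R c f hf

/-- TR: a nonzero power series becomes regular after a linear change with integer coefficients (lowest homogeneous part `f_s`,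
the coefficient of `y_0^s` in `sh lam f` is `f_s(1, lam)`, a nonzero polynomial in `lam`; `ℤ` is infinite in `k`). -/
theorem exists_reg (D : ℕ) {k : Type} [Field k] [CharZero k] (f : MvPowerSeries (Fin (D + 1)) k) (hf : f ≠ 0) :
    ∃ lam : Fin D → ℤ, Reg D (sh D lam k f) :=
  exists_reg_proved D f hf

/-- TS: separation -/
theorem exists_not_mem (D : ℕ) {k : Type} [Field k] (f : MvPowerSeries (Fin D) k) (hf : f ≠ 0) :
    ∃ c, f ∉ mI D k ^ c :=
  exists_not_mem_proved D f hf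

/-- TM: the maximal ideal -/
theorem maximalIdeal_eq (D : ℕ) (k : Type) [Field k] :
    IsLocalRing.maximalIdeal (MvPowerSeries (Fin D) k) = mI D k :=
  maximalIdeal_eq_proved D k

/- TW: `wdata` is in TW.lean -/

/- TU: `usys` is in TU.lean -/

/-- TE: Weierstrass step. -/
theorem wstep (D : ℕ) (IH : TransferAt D) {k R0 : Type} [Field k] [CharZero k] [CommRing R0] [Algebra R0 k] {M : ℕ}
    (Q : Finset (MvPolynomial (Fin M) (MvPolynomial (Fin (D + 1)) R0)))
    (δ : MvPolynomial (Fin M) (MvPolynomial (Fin (D + 1)) R0)) (T0 : Fin M → MvPowerSeries (Fin (D + 1)) k)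
    (hQ : ∀ q ∈ Q, ev (bs (D + 1) R0 k) T0 q = 0) (hδ : Reg D (ev (bs (D + 1) R0 k) T0 δ)) (c : ℕ) (hc : 1 ≤ c) :
    ∃ Lam : Subalgebra R0 k, Lam.FG ∧ ∃ T1 : Fin M → MvPowerSeries (Fin (D + 1)) Lam,
      (∀ q ∈ Q, ev (bs (D + 1) R0 Lam) T1 q ∈
        Ideal.span {ev (bs (D + 1) R0 Lam) T1 δ ^ 2} * Ideal.span {(MvPowerSeries.X 0 : MvPowerSeries (Fin (D + 1)) Lam) ^ c}) ∧
      ∀ j, MvPowerSeries.map (algebraMap Lam k) (T1 j) - T0 j ∈ mI (D + 1) k ^ c :=
  wstep_proved D IH Q δ T0 hQ hδ c hc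

/-- TF: the transfer theorem -/
theorem transfer_zero : TransferAt 0 :=
  transfer_zero_proved

theorem transfer_succ (D : ℕ) (IH : TransferAt D) : TransferAt (D + 1) :=
  transfer_succ_proved D IH

theorem transfer (D : ℕ) : TransferAt D := by
  induction D with
  | zero => exact transfer_zero
  | succ D ih => exact transfer_succ D ih

end Vale.Agent.P202T
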