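import Mathlib

/-! # P202, transfer theorem, module TB1: pseudo division and choice of the minimal relation -/

namespace Vale.Agent.P202T

open Polynomial

/-- Pseudo division over a commutative ring. -/
theorem tb1_pdiv {A : Type*} [CommRing A] (f : A[X]) (hf : 0 < f.natDegree) :
    ∀ (n : ℕ) (p : A[X]), p.natDegree < n →
      ∃ (N : ℕ) (q r : A[X]), C (f.leadingCoeff ^ N) * p = q * f + r ∧
        r.natDegree < f.natDegree := by
  intro n
  induction n with
  | zero => intro p hp; omega
  | succ n ih =>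
    intro p hp
    by_cases h0 : p.natDegree < f.natDegree
    · exact ⟨0, 0, p, by simp, h0⟩
    push Not at h0
    set p' := C f.leadingCoeff * p - C p.leadingCoeff * X ^ (p.natDegree - f.natDegree) * f with hp'
    have hpn : 0 < p.natDegree := by omega
    have hd : p'.natDegree < n := by
      have h1 : p'.natDegree ≤ p.natDegree := by
        rw [hp']
        refine (natDegree_sub_le _ _).trans (max_le (natDegree_C_mul_le _ _) ?_)
        refine natDegree_mul_le.trans ?_
        have := natDegree_C_mul_X_pow_le p.leadingCoeff (p.natDegree - f.natDegree)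
        omega
      have h2 : p'.coeff p.natDegree = 0 := by
        rw [hp', coeff_sub, coeff_C_mul, mul_assoc, coeff_C_mul]
        have e : (X ^ (p.natDegree - f.natDegree) * f).coeff p.natDegree = f.leadingCoeff := by
          rw [coeff_X_pow_mul', if_pos (Nat.sub_le _ _), Nat.sub_sub_self h0]
          rfl
        rw [e, coeff_natDegree]
        ring
      rcases Nat.lt_or_ge p'.natDegree p.natDegree with h3 | h3
      · omega
      · have h4 : p'.natDegree = p.natDegree := le_antisymm h1 h3
        have h5 : p' = 0 := by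
          rw [← leadingCoeff_eq_zero, leadingCoeff, h4]
          exact h2
        rw [h5, natDegree_zero]
        omega
    obtain ⟨N, q, r, h1, h2⟩ := ih p' hd
    refine ⟨N + 1, q + C (f.leadingCoeff ^ N) * (C p.leadingCoeff * X ^ (p.natDegree - f.natDegree)),
      r, ?_, h2⟩
    have h3 : C (f.leadingCoeff ^ (N + 1)) * p = C (f.leadingCoeff ^ N) * p' +
        C (f.leadingCoeff ^ N) * (C p.leadingCoeff * X ^ (p.natDegree - f.natDegree)) * f := by
      rw [hp', pow_succ, C_mul]
      ring
    rw [h3, h1]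
    ring

/-- The dichotomy: either all relations are trivial or there is a minimal one. -/
theorem tb1_choice {S K : Type*} [CommRing S] [CommRing K] [IsDomain K] [CharZero K]
    (ψ : S →+* K) (θ : K) :
    (∀ p : S[X], p.eval₂ ψ θ = 0 → ∀ i, ψ (p.coeff i) = 0) ∨
    ∃ f : S[X], 0 < f.natDegree ∧ ψ f.leadingCoeff ≠ 0 ∧ f.eval₂ ψ θ = 0 ∧
      (derivative f).eval₂ ψ θ ≠ 0 ∧
      ∀ p : S[X], p.eval₂ ψ θ = 0 → ∃ (N : ℕ) (q r : S[X]),
        C (f.leadingCoeff ^ N) * p = q * f + r ∧ ∀ i, ψ (r.coeff i) = 0 := by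
  classical
  by_cases hT : ∀ p : S[X], p.eval₂ ψ θ = 0 → p.map ψ = 0
  · left
    intro p hp i
    have h := congrArg (fun q => q.coeff i) (hT p hp)
    simpa only [coeff_map, coeff_zero] using h
  right
  push Not at hT
  obtain ⟨p₀, hp₀, hp₀'⟩ := hT
  have hex : ∃ n : ℕ, ∃ p : S[X], (p.map ψ).natDegree = n ∧ p.map ψ ≠ 0 ∧ p.eval₂ ψ θ = 0 :=
    ⟨_, p₀, rfl, hp₀', hp₀⟩
  obtain ⟨g, hgn, hg0, hgz⟩ := Nat.find_spec hex
  have hmin : ∀ p : S[X], p.map ψ ≠ 0 → p.eval₂ ψ θ = 0 →
      (g.map ψ).natDegree ≤ (p.map ψ).natDegree := by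
    intro p hp hpz
    rw [hgn]
    exact Nat.find_min' hex ⟨p, rfl, hp, hpz⟩
  have hlift : g.map ψ ∈ lifts ψ := (mem_lifts _).mpr ⟨g, rfl⟩
  obtain ⟨f, hfg, hfd⟩ := mem_lifts_and_degree_eq hlift
  have hfn : f.natDegree = (g.map ψ).natDegree := natDegree_eq_of_degree_eq hfd
  have hfl : ψ f.leadingCoeff ≠ 0 := by
    rw [leadingCoeff, ← coeff_map, hfg, hfn]
    exact leadingCoeff_ne_zero.mpr hg0
  have hfz : f.eval₂ ψ θ = 0 := by
    rw [← eval_map, hfg, eval_map]
    exact hgz
  have hpos : 0 < f.natDegree := by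
    rcases Nat.eq_zero_or_pos f.natDegree with h | h
    · exfalso
      have e := eq_C_of_natDegree_eq_zero h
      rw [e, eval₂_C] at hfz
      rw [leadingCoeff, h] at hfl
      exact hfl hfz
    · exact h
  refine ⟨f, hpos, hfl, hfz, ?_, ?_⟩
  · intro h
    have h1 : (derivative f).map ψ ≠ 0 := by
      rw [← derivative_map]
      intro h2
      have h3 := Polynomial.natDegree_eq_zero_of_derivative_eq_zero h2
      rw [hfg, ← hfn] at h3
      omega
    have h2 := hmin _ h1 h
    rw [← derivative_map, hfg] at h2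
    have h3 := natDegree_derivative_lt (p := g.map ψ) (by omega)
    omega
  · intro p hp
    obtain ⟨N, q, r, h1, h2⟩ := tb1_pdiv f hpos (p.natDegree + 1) p (Nat.lt_succ_self _)
    refine ⟨N, q, r, h1, ?_⟩
    have hr : r.eval₂ ψ θ = 0 := by
      have h3 := congrArg (fun q => eval₂ ψ θ q) h1
      simp only [eval₂_mul, eval₂_add, hp, hfz, mul_zero, zero_add] at h3
      exact h3.symm
    have h4 : r.map ψ = 0 := by
      by_contra h5
      have h6 := hmin r h5 hr
      have h7 : (r.map ψ).natDegree ≤ r.natDegree := natDegree_map_le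
      omega
    intro i
    have h := congrArg (fun q => q.coeff i) h4
    simpa only [coeff_map, coeff_zero] using h

end Vale.Agent.P202T
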