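import Vale.Agent.P202T.Toug
import Vale.Agent.P202T.MinP

namespace Vale.Agent.P202T

open MvPolynomial

universe u v w

theorem aeval_cons {C : Type u} [CommRing C] {B : Type v} [CommRing B] [Algebra C B] {M : ℕ}
    (b : B) (T : Fin M → B) (f : MvPolynomial (Fin (M + 1)) C) :
    aeval (Fin.cons b T : Fin (M + 1) → B) f =
      (finSuccEquiv C M f).eval₂ ((aeval T : MvPolynomial (Fin M) C →ₐ[C] B) : _ →+* B) b := by
  induction f using MvPolynomial.induction_on with
  | C a =>
    have h : finSuccEquiv C M (MvPolynomial.C a) = Polynomial.C (MvPolynomial.C a) :=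
      AlgEquiv.commutes _ a
    rw [aeval_C, h, Polynomial.eval₂_C, RingHom.coe_coe, aeval_C]
  | add p q hp hq => rw [map_add, map_add, Polynomial.eval₂_add, hp, hq]
  | mul_X p i hp =>
    rw [map_mul, map_mul, Polynomial.eval₂_mul, hp]
    congr 1
    refine Fin.cases ?_ (fun j => ?_) i
    · rw [aeval_X, Fin.cons_zero, finSuccEquiv_X_zero, Polynomial.eval₂_X]
    · rw [aeval_X, Fin.cons_succ, finSuccEquiv_X_succ, Polynomial.eval₂_C, RingHom.coe_coe,
        aeval_X]

theorem aeval_rename_succ {C : Type u} [CommRing C] {B : Type v} [CommRing B] [Algebra C B]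
    {M : ℕ} (T : Fin (M + 1) → B) (f : MvPolynomial (Fin M) C) :
    aeval T (rename Fin.succ f) = aeval (Fin.tail T) f := by
  rw [aeval_rename]
  rfl

theorem dvd_aeval_sub {C : Type u} [CommRing C] {B : Type v} [CommRing B] [Algebra C B]
    {σ : Type w} (T T' : σ → B) (c : B) (h : ∀ j, c ∣ T j - T' j) (f : MvPolynomial σ C) :
    c ∣ aeval T f - aeval T' f := by
  rw [← Ideal.mem_span_singleton, ← Ideal.Quotient.eq_zero_iff_mem, map_sub, sub_eq_zero]
  have e : ∀ S : σ → B, Ideal.Quotient.mk (Ideal.span {c}) (aeval S f) =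
      aeval (fun j => Ideal.Quotient.mk (Ideal.span {c}) (S j)) f := by
    intro S
    have := MvPolynomial.comp_aeval_apply (B := B ⧸ Ideal.span {c})
      (φ := Ideal.Quotient.mkₐ C (Ideal.span {c})) S f
    exact this
  rw [e, e]
  congr 1
  congr 1
  funext j
  have := h j
  rw [← Ideal.mem_span_singleton, ← Ideal.Quotient.eq_zero_iff_mem, map_sub, sub_eq_zero] at this
  exact this

/-- Lifting approximate solutions to solutions (triangular form of the Newton-Tougeron lemma). -/
theorem tri_lift {C : Type u} [CommRing C] {K : Type v} [CommRing K] [IsDomain K] [CharZero K]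
    [Algebra C K] (hinj : Function.Injective (algebraMap C K)) : ∀ (M : ℕ) (T0 : Fin M → K)
    (F : Finset (MvPolynomial (Fin M) C)), (∀ f ∈ F, aeval T0 f = 0) →
    ∃ (d : MvPolynomial (Fin M) C) (G : Finset (MvPolynomial (Fin M) C)), aeval T0 d ≠ 0 ∧
      (∀ g ∈ G, aeval T0 g = 0) ∧
      ∀ (B : Type w) [CommRing B] [IsDomain B] [Algebra C B] (J : Ideal B) [IsAdicComplete J B]
        (T1 : Fin M → B) (e : B), e ∈ J → aeval T1 d ≠ 0 →
        (∀ g ∈ G, e * (aeval T1 d) ^ 2 ∣ aeval T1 g) →
        ∃ T : Fin M → B, (∀ f ∈ F, aeval T f = 0) ∧ ∀ j, e * aeval T1 d ∣ T j - T1 j := by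
  classical
  intro M
  induction M with
  | zero =>
    intro T0 F hF
    refine ⟨1, ∅, by rw [map_one]; exact one_ne_zero, by simp, ?_⟩
    intro B _ _ _ J _ T1 e he hd hG
    refine ⟨T1, fun f hf => ?_, fun j => j.elim0⟩
    have h1 := hF f hf
    obtain ⟨c, rfl⟩ := MvPolynomial.C_surjective (Fin 0) f
    rw [MvPolynomial.aeval_C] at h1
    have h2 : c = 0 := hinj (by rw [h1, map_zero])
    rw [h2, map_zero, map_zero]
  | succ M ih =>
    intro T0 F hF
    set θ := T0 0 with hθ
    set T0' := Fin.tail T0 with hT0'
    have hcons : T0 = Fin.cons θ T0' := (Fin.cons_self_tail T0).symm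
    let ψ : MvPolynomial (Fin M) C →+* K := (aeval T0' : MvPolynomial (Fin M) C →ₐ[C] K)
    have hψ : ∀ s, ψ s = aeval T0' s := fun s => rfl
    have hev0 : ∀ f : MvPolynomial (Fin (M + 1)) C,
        aeval T0 f = (finSuccEquiv C M f).eval₂ ψ θ := by
      intro f
      conv_lhs => rw [hcons]
      exact aeval_cons θ T0' f
    rcases exists_min' ψ θ with hA | ⟨m, hm1, hm2, hm3⟩
    · -- transcendental case
      let F' : Finset (MvPolynomial (Fin M) C) :=
        F.biUnion fun f => (finSuccEquiv C M f).support.image fun i => (finSuccEquiv C M f).coeff i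
      have hF' : ∀ f' ∈ F', aeval T0' f' = 0 := by
        intro f' hf'
        simp only [F', Finset.mem_biUnion, Finset.mem_image] at hf'
        obtain ⟨f, hf, i, -, rfl⟩ := hf'
        exact hA _ (by rw [← hev0, hF f hf]) i
      obtain ⟨d, G, hd, hG, hL⟩ := ih T0' F' hF'
      refine ⟨rename Fin.succ d, G.image (rename Fin.succ), ?_, ?_, ?_⟩
      · rw [aeval_rename_succ]
        exact hd
      · intro g hg
        obtain ⟨g', hg', rfl⟩ := Finset.mem_image.mp hg
        rw [aeval_rename_succ]
        exact hG g' hg'
      · intro B _ _ _ J _ T1 e he hd1 hG1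
        rw [aeval_rename_succ] at hd1
        obtain ⟨T', hT'1, hT'2⟩ := hL B J (Fin.tail T1) e he hd1 (by
          intro g hg
          have := hG1 _ (Finset.mem_image_of_mem _ hg)
          rwa [aeval_rename_succ, aeval_rename_succ] at this)
        refine ⟨Fin.cons (T1 0) T', ?_, ?_⟩
        · intro f hf
          rw [aeval_cons, Polynomial.eval₂_eq_sum, Polynomial.sum]
          refine Finset.sum_eq_zero fun i hi => ?_
          have h1 : aeval T' ((finSuccEquiv C M f).coeff i) = 0 := by
            refine hT'1 _ ?_
            simp only [F', Finset.mem_biUnion, Finset.mem_image]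
            exact ⟨f, hf, i, hi, rfl⟩
          have h2 : ((aeval T' : MvPolynomial (Fin M) C →ₐ[C] B) : _ →+* B)
              ((finSuccEquiv C M f).coeff i) = 0 := h1
          rw [h2, zero_mul]
        · intro j
          rw [aeval_rename_succ]
          refine Fin.cases ?_ (fun j => ?_) j
          · rw [Fin.cons_zero, sub_self]
            exact dvd_zero _
          · rw [Fin.cons_succ]
            exact hT'2 j
    · -- algebraic case
      have hch : ∀ f : MvPolynomial (Fin (M + 1)) C, ∃ (g : MvPolynomial (Fin M) C)
          (h : Polynomial (MvPolynomial (Fin M) C)), f ∈ F → ψ g ≠ 0 ∧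
            ∀ i, ψ ((Polynomial.C g * finSuccEquiv C M f - m * h).coeff i) = 0 := by
        intro f
        by_cases hf : f ∈ F
        · obtain ⟨g, h, h1, h2⟩ := hm3 (finSuccEquiv C M f) (by rw [← hev0, hF f hf])
          exact ⟨g, h, fun _ => ⟨h1, h2⟩⟩
        · exact ⟨0, 0, fun h => absurd h hf⟩
      choose gf hf hgh using hch
      let q : MvPolynomial (Fin (M + 1)) C → Polynomial (MvPolynomial (Fin M) C) := fun f =>
        Polynomial.C (gf f) * finSuccEquiv C M f - m * hf f
      let F' : Finset (MvPolynomial (Fin M) C) :=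
        F.biUnion fun f => (q f).support.image fun i => (q f).coeff i
      have hF' : ∀ f' ∈ F', aeval T0' f' = 0 := by
        intro f' hf'
        simp only [F', Finset.mem_biUnion, Finset.mem_image] at hf'
        obtain ⟨f, hf, i, -, rfl⟩ := hf'
        exact (hgh f hf).2 i
      obtain ⟨d, G, hd, hG, hL⟩ := ih T0' F' hF'
      let g : MvPolynomial (Fin M) C := ∏ f ∈ F, gf f
      have hg : ψ g ≠ 0 := by
        rw [map_prod]
        exact Finset.prod_ne_zero_iff.mpr fun f hf => (hgh f hf).1
      let μ : MvPolynomial (Fin (M + 1)) C := (finSuccEquiv C M).symm m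
      let μ' : MvPolynomial (Fin (M + 1)) C := (finSuccEquiv C M).symm (Polynomial.derivative m)
      have hμ : finSuccEquiv C M μ = m := AlgEquiv.apply_symm_apply _ _
      have hμ' : finSuccEquiv C M μ' = Polynomial.derivative m := AlgEquiv.apply_symm_apply _ _
      refine ⟨rename Fin.succ d * μ' * rename Fin.succ g, insert μ (G.image (rename Fin.succ)),
        ?_, ?_, ?_⟩
      · rw [map_mul, map_mul, aeval_rename_succ, aeval_rename_succ, hev0 μ', hμ']
        exact mul_ne_zero (mul_ne_zero hd hm2) hg
      · intro g' hg'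
        rcases Finset.mem_insert.mp hg' with rfl | hg'
        · rw [hev0, hμ, hm1]
        · obtain ⟨g'', hg'', rfl⟩ := Finset.mem_image.mp hg'
          rw [aeval_rename_succ]
          exact hG g'' hg''
      · intro B _ _ _ J _ T1 e he hd1 hG1
        set T1' := Fin.tail T1 with hT1'
        have hcons1 : T1 = Fin.cons (T1 0) T1' := (Fin.cons_self_tail T1).symm
        rw [map_mul, map_mul, aeval_rename_succ, aeval_rename_succ] at hd1
        set D := aeval T1' d with hD
        set X := aeval T1 μ' with hX
        set g1 := aeval T1' g with hg1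
        have hD0 : D ≠ 0 := fun h => hd1 (by rw [h, zero_mul, zero_mul])
        have hX0 : X ≠ 0 := fun h => hd1 (by rw [h, mul_zero, zero_mul])
        have hg10 : g1 ≠ 0 := fun h => hd1 (by rw [h, mul_zero])
        obtain ⟨T', hT'1, hT'2⟩ := hL B J T1' (e * X ^ 2 * g1 ^ 2)
          (J.mul_mem_right _ (J.mul_mem_right _ he)) hD0 (by
          intro g' hg'
          have := hG1 _ (Finset.mem_insert_of_mem (Finset.mem_image_of_mem _ hg'))
          rw [map_mul, map_mul, aeval_rename_succ, aeval_rename_succ, aeval_rename_succ] at this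
          refine dvd_trans (dvd_of_eq ?_) this
          rw [← hD, ← hX, ← hg1]
          ring)
        rw [← hD] at hT'2
        -- comparison of the two points
        have hcmp : ∀ f : MvPolynomial (Fin (M + 1)) C, ∃ s,
            aeval (Fin.cons (T1 0) T' : Fin (M + 1) → B) f =
              aeval T1 f + e * X ^ 2 * g1 ^ 2 * D * s := by
          intro f
          obtain ⟨s, hs⟩ := dvd_aeval_sub (Fin.cons (T1 0) T' : Fin (M + 1) → B) T1
            (e * X ^ 2 * g1 ^ 2 * D) (by
              intro j
              refine Fin.cases ?_ (fun j => ?_) j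
              · rw [Fin.cons_zero, sub_self]
                exact dvd_zero _
              · rw [Fin.cons_succ]
                exact hT'2 j) f
          exact ⟨s, by rw [← hs]; ring⟩
        obtain ⟨s1, hs1⟩ := hcmp μ'
        obtain ⟨s2, hs2⟩ := hcmp μ
        obtain ⟨s3, hs3⟩ := hG1 μ (Finset.mem_insert_self _ _)
        rw [map_mul, map_mul, aeval_rename_succ, aeval_rename_succ, ← hT1', ← hD, ← hX, ← hg1]
          at hs3
        rw [← hX] at hs1
        have hunit : ∀ s : B, IsUnit (1 + e * s) := by
          intro s
          have h1 := IsAdicComplete.le_jacobson_bot J (J.mul_mem_right s he)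
          rw [Ideal.mem_jacobson_bot] at h1
          have h2 := h1 1
          rw [mul_one, add_comm] at h2
          exact h2
        let p : Polynomial B :=
          m.map ((aeval T' : MvPolynomial (Fin M) C →ₐ[C] B) : MvPolynomial (Fin M) C →+* B)
        have hp0 : p.eval (T1 0) = X ^ 2 * (e * g1 ^ 2 * D * (D * s3 + s2)) := by
          have h1 : p.eval (T1 0) = aeval (Fin.cons (T1 0) T' : Fin (M + 1) → B) μ := by
            rw [aeval_cons, hμ, Polynomial.eval_map]
          rw [h1, hs2, hs3]
          ring
        obtain ⟨u, hu⟩ := hunit (X * g1 ^ 2 * D * s1)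
        have hp1 : (Polynomial.derivative p).eval (T1 0) = X * u := by
          have h1 : (Polynomial.derivative p).eval (T1 0) =
              aeval (Fin.cons (T1 0) T' : Fin (M + 1) → B) μ' := by
            rw [aeval_cons, hμ', Polynomial.derivative_map, Polynomial.eval_map]
          rw [h1, hs1, hu]
          ring
        obtain ⟨w, hw, hroot⟩ := toug J p (T1 0)
          ((↑u⁻¹ : B) ^ 2 * (e * g1 ^ 2 * D * (D * s3 + s2)))
          (J.mul_mem_left _ (J.mul_mem_right _ (J.mul_mem_right _ (J.mul_mem_right _ he))))
          (by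
            rw [hp0, hp1]
            have h1 : (u : B) * (↑u⁻¹ : B) = 1 := u.mul_inv
            calc X ^ 2 * (e * g1 ^ 2 * D * (D * s3 + s2))
                = X ^ 2 * ((u : B) * (↑u⁻¹ : B)) ^ 2 * (e * g1 ^ 2 * D * (D * s3 + s2)) := by
                  rw [h1]; ring
              _ = _ := by ring)
        set θ' := T1 0 + (Polynomial.derivative p).eval (T1 0) * w with hθ'
        refine ⟨Fin.cons θ' T', ?_, ?_⟩
        · intro f hfF
          have hq0 : (q f).eval₂ ((aeval T' : MvPolynomial (Fin M) C →ₐ[C] B) :
              MvPolynomial (Fin M) C →+* B) θ' = 0 := by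
            rw [Polynomial.eval₂_eq_sum, Polynomial.sum]
            refine Finset.sum_eq_zero fun i hi => ?_
            have h1 : aeval T' ((q f).coeff i) = 0 := by
              refine hT'1 _ ?_
              simp only [F', Finset.mem_biUnion, Finset.mem_image]
              exact ⟨f, hfF, i, hi, rfl⟩
            have h2 : ((aeval T' : MvPolynomial (Fin M) C →ₐ[C] B) : _ →+* B)
                ((q f).coeff i) = 0 := h1
            rw [h2, zero_mul]
          have hm0 : m.eval₂ ((aeval T' : MvPolynomial (Fin M) C →ₐ[C] B) :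
              MvPolynomial (Fin M) C →+* B) θ' = 0 := by
            rw [← Polynomial.eval_map]
            exact hroot
          simp only [q, Polynomial.eval₂_sub, Polynomial.eval₂_mul, hm0, zero_mul, sub_zero,
            Polynomial.eval₂_C] at hq0
          rw [← aeval_cons] at hq0
          rcases mul_eq_zero.mp hq0 with h | h
          · exfalso
            have h1 : aeval T' g = 0 := by
              have h2 : aeval T' g = ∏ f ∈ F, aeval T' (gf f) := map_prod _ _ _
              rw [h2]
              exact Finset.prod_eq_zero hfF h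
            obtain ⟨s, hs⟩ := dvd_aeval_sub T' T1' (e * X ^ 2 * g1 ^ 2 * D) hT'2 g
            rw [h1, ← hg1] at hs
            have h3 : g1 * (1 + e * (X ^ 2 * g1 * D * s)) = 0 := by
              have : g1 * (1 + e * (X ^ 2 * g1 * D * s)) =
                g1 + e * X ^ 2 * g1 ^ 2 * D * s := by ring
              rw [this, ← hs]
              ring
            rcases mul_eq_zero.mp h3 with h4 | h4
            · exact hg10 h4
            · exact (hunit (X ^ 2 * g1 * D * s)).ne_zero h4
          · exact h
        · intro j
          rw [map_mul, map_mul, aeval_rename_succ, aeval_rename_succ, ← hT1', ← hD, ← hX, ← hg1]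
          refine Fin.cases ?_ (fun j => ?_) j
          · rw [Fin.cons_zero, hθ', add_sub_cancel_left, hp1]
            obtain ⟨w', rfl⟩ := hw
            exact ⟨g1 * u * ((↑u⁻¹ : B) ^ 2 * (D * s3 + s2)) * w', by ring⟩
          · rw [Fin.cons_succ]
            refine dvd_trans ⟨X * g1, by ring⟩ (hT'2 j)

end Vale.Agent.P202T
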